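import Mathlib

/-!
Definitions for P069: equivalent norms, closed finite-codimensional subspaces, and the moduli of
asymptotic uniform convexity and asymptotic midpoint uniform convexity.
The infima and suprema are taken in the complete lattice `EReal`, so they are the true ones.
-/

namespace Vale.Agent.P069

variable {X : Type} [NormedAddCommGroup X] [NormedSpace ℝ X]

/-- `N` is a norm on `X` equivalent to the given norm. -/
def IsEquivNorm (N : X → ℝ) : Prop :=
  (∀ x y : X, N (x + y) ≤ N x + N y) ∧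
  (∀ (c : ℝ) (x : X), N (c • x) = |c| * N x) ∧
  ∃ a b : ℝ, 0 < a ∧ 0 < b ∧ ∀ x : X, a * ‖x‖ ≤ N x ∧ N x ≤ b * ‖x‖

/-- `F` is a closed subspace of finite codimension. -/
def IsCof (F : Submodule ℝ X) : Prop :=
  IsClosed (F : Set X) ∧ FiniteDimensional ℝ (X ⧸ F)

/-- The modulus of asymptotic uniform convexity of `N` at `t`. -/
noncomputable def aucModulus (N : X → ℝ) (t : ℝ) : EReal :=
  ⨅ x ∈ {x : X | N x = 1}, ⨆ F ∈ {F : Submodule ℝ X | IsCof F},
    ⨅ y ∈ {y : X | y ∈ F ∧ N y = 1}, ((N (x + t • y) - 1 : ℝ) : EReal)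

/-- The modulus of asymptotic midpoint uniform convexity of `N` at `t`. -/
noncomputable def amucModulus (N : X → ℝ) (t : ℝ) : EReal :=
  ⨅ x ∈ {x : X | N x = 1}, ⨆ F ∈ {F : Submodule ℝ X | IsCof F},
    ⨅ y ∈ {y : X | y ∈ F ∧ N y = 1}, ((max (N (x + t • y)) (N (x - t • y)) - 1 : ℝ) : EReal)

/-- `N` is asymptotically uniformly convex. -/
def IsAUC (N : X → ℝ) : Prop := ∀ t : ℝ, 0 < t → 0 < aucModulus N t

/-- `N` is asymptotically midpoint uniformly convex. -/
def IsAMUC (N : X → ℝ) : Prop := ∀ t : ℝ, 0 < t → 0 < amucModulus N t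

end Vale.Agent.P069
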