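import Vale.Agent.P069.Key

/-!
The dual of the James forest space: finite support approximation and reflexivity.
-/

namespace Vale.Agent.P069

open Finset

/-- The predual: finitely supported functions with the James tree norm. -/
abbrev E : Type := T →₀ ℝ

/-- The space: the dual of `E`. -/
abbrev XX : Type := StrongDual ℝ E

lemma norm_le_of_Q_le {x y : E} (h : Q x ≤ Q y) : ‖x‖ ≤ ‖y‖ := Real.sqrt_le_sqrt h

lemma norm_le_of_Q_le_sq {x : E} {c : ℝ} (hc : 0 ≤ c) (h : Q x ≤ c ^ 2) : ‖x‖ ≤ c := by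
  rw [norm_def]; exact Real.sqrt_le_iff.2 ⟨hc, h⟩

lemma norm_filter_le (p : T → Prop) [DecidablePred p] (hp : Conv p) (y : E) :
    ‖y.filter p‖ ≤ ‖y‖ := norm_le_of_Q_le (Q_filter_le p hp y)

/-- Restriction to a convex set of nodes. -/
noncomputable def proj (p : T → Prop) [DecidablePred p] (hp : Conv p) : E →L[ℝ] E :=
  LinearMap.mkContinuous
    { toFun := fun y => y.filter p
      map_add' := fun x y => Finsupp.filter_add
      map_smul' := fun c y => Finsupp.filter_smul } 1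
    (fun y => by simpa using norm_filter_le p hp y)

@[simp] lemma proj_apply (p : T → Prop) [DecidablePred p] (hp : Conv p) (y : E) :
    proj p hp y = y.filter p := rfl

lemma abs_seg_le {S : Finset T} (hS : IsSeg S) (y : E) : |∑ t ∈ S, y t| ≤ ‖y‖ := by
  rw [norm_def]
  exact Real.abs_le_sqrt (seg_sq_le_Q hS y)

/-- The coordinate functional. -/
noncomputable def ev (t : T) : XX :=
  LinearMap.mkContinuous (Finsupp.lapply t) 1 (fun y => by
    have := abs_seg_le (isSeg_singleton t) y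
    simpa using this)

@[simp] lemma ev_apply (t : T) (y : E) : ev t y = y t := rfl

lemma norm_single_le (t : T) : ‖(Finsupp.single t (1 : ℝ) : E)‖ ≤ 1 := by
  refine norm_le_of_Q_le_sq zero_le_one ((Q_le_l1 _).trans ?_)
  rw [Finsupp.support_single _ one_ne_zero]
  simp

lemma exists_norming {V : Type} [NormedAddCommGroup V] [NormedSpace ℝ V] (f : StrongDual ℝ V)
    {θ : ℝ} (hθ : 0 < θ) : ∃ x : V, ‖x‖ ≤ 1 ∧ ‖f‖ - θ < f x := by
  obtain ⟨x, hx1, hx2⟩ := f.exists_lt_apply_of_lt_opNorm (r := ‖f‖ - θ) (by linarith)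
  rw [Real.norm_eq_abs] at hx2
  rcases le_total 0 (f x) with h | h
  · exact ⟨x, hx1.le, by rwa [abs_of_nonneg h] at hx2⟩
  · refine ⟨-x, by simpa using hx1.le, ?_⟩
    rw [abs_of_nonpos h] at hx2
    simpa using hx2

lemma tail_small {V : Type} [NormedAddCommGroup V] [NormedSpace ℝ V] (φ : StrongDual ℝ V)
    {η : ℝ} (hη : 0 < η) : ∃ θ : ℝ, 0 < θ ∧ ∀ v0 w : V, ‖φ‖ - θ ≤ φ v0 →
      (∀ s : ℝ, ‖v0 + s • w‖ ≤ 1 + s ^ 2 / 2) → |φ w| ≤ η := by
  have hK : 0 ≤ ‖φ‖ := norm_nonneg _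
  set K := ‖φ‖ with hKdef
  have hs : 0 < η / (K + 1) := by positivity
  set s := η / (K + 1) with hsdef
  have hsK : s * (K + 1) = η := by rw [hsdef]; field_simp
  refine ⟨s * η / 2, by positivity, fun v0 w h0 hw => ?_⟩
  have h1 : ∀ r : ℝ, φ v0 + r * φ w ≤ K * (1 + r ^ 2 / 2) := fun r => by
    have h2 := φ.le_opNorm (v0 + r • w)
    rw [map_add, map_smul, smul_eq_mul, Real.norm_eq_abs] at h2
    exact (le_abs_self _).trans (h2.trans (mul_le_mul_of_nonneg_left (hw r) hK))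
  have h3 := h1 s
  have h4 := h1 (-s)
  have h5 : K * s ≤ η := by nlinarith
  have h6 : K * s ^ 2 / 2 ≤ s * η / 2 := by nlinarith
  rw [abs_le]
  constructor
  · refine le_of_mul_le_mul_left ?_ hs
    nlinarith
  · refine le_of_mul_le_mul_left ?_ hs
    nlinarith

lemma bound_of_unit {V : Type} [NormedAddCommGroup V] [NormedSpace ℝ V] (φ : StrongDual ℝ V)
    (P : V → Prop) (hP : ∀ (c : ℝ) v, P v → P (c • v)) {η : ℝ}
    (h : ∀ v, P v → ‖v‖ ≤ 1 → |φ v| ≤ η) (v : V) (hv : P v) : |φ v| ≤ η * ‖v‖ := by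
  rcases eq_or_ne v 0 with rfl | hne
  · simp
  have hpos : 0 < ‖v‖ := norm_pos_iff.2 hne
  have h1 := h (‖v‖⁻¹ • v) (hP _ _ hv) (by rw [norm_smul, norm_inv, norm_norm]; field_simp; rfl)
  rw [map_smul, smul_eq_mul, abs_mul, abs_inv, abs_norm] at h1
  have h2 := mul_le_mul_of_nonneg_left h1 hpos.le
  rw [← mul_assoc, mul_inv_cancel₀ hpos.ne', one_mul] at h2
  linarith

lemma sq_le_of_self {S c : ℝ} (hS : 0 ≤ S) (h : S ≤ c * √S) : S ≤ c ^ 2 := by
  have h1 := Real.sq_sqrt hS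
  nlinarith [sq_nonneg (c - √S)]

lemma apply_eq_sum (f : XX) (y : E) : f y = ∑ t ∈ y.support, y t * f (Finsupp.single t 1) := by
  conv_lhs => rw [← Finsupp.sum_single y, Finsupp.sum, map_sum]
  refine sum_congr rfl fun t _ => ?_
  rw [← smul_eq_mul, ← map_smul, Finsupp.smul_single, smul_eq_mul, mul_one]

lemma tail_comp (f : XX) {η : ℝ} (hη : 0 < η) :
    ∃ m : ℕ, ∀ y : E, (∀ t, comp t < m → y t = 0) → |f y| ≤ η * ‖y‖ := by
  obtain ⟨θ, hθ, H⟩ := tail_small f hη
  obtain ⟨x0, hx1, hx2⟩ := exists_norming f hθ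
  refine ⟨x0.support.sup comp + 1, bound_of_unit f _ (fun c v hv t ht => by
    simp [hv t ht]) fun y hy hy1 => H x0 y hx2.le fun s => ?_⟩
  have h1 := Q_add_le_of_comp (x0.support.sup comp + 1) x0 (s • y) (fun t ht => by
    by_contra hc
    have := Finset.le_sup (f := comp) (Finsupp.mem_support_iff.2 hc)
    omega) (fun t ht => by simp [hy t ht])
  have h2 := Q_smul_le s y
  have h3 : Q x0 ≤ 1 := by rw [← norm_sq]; exact pow_le_one₀ (norm_nonneg _) hx1
  have h4 : Q y ≤ 1 := by rw [← norm_sq]; exact pow_le_one₀ (norm_nonneg _) hy1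
  refine norm_le_of_Q_le_sq (by positivity) ?_
  nlinarith [sq_nonneg s, sq_nonneg (s ^ 2)]

lemma summable_head (f : XX) (m : ℕ) :
    Summable (fun t => if comp t < m then f (Finsupp.single t 1) ^ 2 else 0) := by
  refine summable_of_sum_le (c := (‖f‖ * √m) ^ 2) (fun t => by
    simp only; split_ifs <;> positivity) fun I => ?_
  rw [← Finset.sum_filter]
  set J := I.filter (fun t => comp t < m) with hJ
  let y : E := Finsupp.onFinset J (fun t => if t ∈ J then f (Finsupp.single t 1) else 0) (by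
    intro t ht
    by_contra hc
    exact ht (if_neg hc))
  have hy : ∀ t, y t = if t ∈ J then f (Finsupp.single t 1) else 0 := fun t => rfl
  have hsupp : y.support ⊆ J := Finsupp.support_onFinset_subset
  have h1 : f y = ∑ t ∈ J, f (Finsupp.single t 1) ^ 2 := by
    rw [apply_eq_sum, sum_subset hsupp (fun t _ ht => by
      rw [Finsupp.notMem_support_iff.1 ht, zero_mul])]
    refine sum_congr rfl fun t ht => ?_
    rw [hy, if_pos ht]; ring
  have h2 : ∑ t ∈ y.support, y t ^ 2 = ∑ t ∈ J, f (Finsupp.single t 1) ^ 2 := by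
    rw [sum_subset hsupp (fun t _ ht => by
      rw [Finsupp.notMem_support_iff.1 ht]; ring)]
    refine sum_congr rfl fun t ht => ?_
    rw [hy, if_pos ht]
  have h3 := Q_le_of_comp m y (fun t ht => by
    rw [hy, if_neg]
    intro hc
    have := (mem_filter.1 hc).2
    omega)
  rw [h2] at h3
  have h4 : ‖y‖ ≤ √m * √(∑ t ∈ J, f (Finsupp.single t 1) ^ 2) := by
    rw [norm_def, ← Real.sqrt_mul (Nat.cast_nonneg m)]
    exact Real.sqrt_le_sqrt h3
  refine sq_le_of_self (sum_nonneg fun t _ => sq_nonneg _) ?_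
  have h5 := f.le_opNorm y
  rw [Real.norm_eq_abs, h1] at h5
  calc _ ≤ _ := le_abs_self _
    _ ≤ ‖f‖ * ‖y‖ := h5
    _ ≤ ‖f‖ * (√m * √(∑ t ∈ J, f (Finsupp.single t 1) ^ 2)) :=
      mul_le_mul_of_nonneg_left h4 (norm_nonneg _)
    _ = _ := by ring

lemma tail_head (f : XX) (m : ℕ) {η : ℝ} (hη : 0 < η) :
    ∃ B : Finset T, ∀ y : E, (∀ t, m ≤ comp t → y t = 0) → (∀ t ∈ B, y t = 0) →
      |f y| ≤ η * ‖y‖ := by
  obtain ⟨B, hB⟩ := summable_iff_vanishing_norm.1 (summable_head f m) (η ^ 2) (by positivity)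
  refine ⟨B, fun y hy1 hy2 => ?_⟩
  have h1 := hB y.support (by
    rw [Finset.disjoint_left]
    intro t ht htB
    exact Finsupp.mem_support_iff.1 ht (hy2 t htB))
  have h2 : ∑ t ∈ y.support, (if comp t < m then f (Finsupp.single t 1) ^ 2 else 0)
      = ∑ t ∈ y.support, f (Finsupp.single t 1) ^ 2 := by
    refine sum_congr rfl fun t ht => if_pos ?_
    by_contra hc
    exact Finsupp.mem_support_iff.1 ht (hy1 t (not_lt.1 hc))
  rw [h2, Real.norm_eq_abs] at h1
  have h3 := (le_abs_self _).trans h1.le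
  have h4 := Finset.sum_mul_sq_le_sq_mul_sq y.support (fun t => y t)
    (fun t => f (Finsupp.single t 1))
  have h5 := sum_sq_le_Q y.support y
  rw [← norm_sq] at h5
  rw [← apply_eq_sum] at h4
  refine abs_le_of_sq_le_sq' ?_ (by positivity) |> fun h => abs_le.2 h
  calc f y ^ 2 ≤ _ := h4
    _ ≤ ‖y‖ ^ 2 * η ^ 2 :=
      mul_le_mul h5 h3 (sum_nonneg fun t _ => sq_nonneg _) (sq_nonneg _)
    _ = (η * ‖y‖) ^ 2 := by ring

/-- Every functional is almost supported on a finite lower set. -/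
theorem shrinking (f : XX) {η : ℝ} (hη : 0 < η) (B0 : Finset T) :
    ∃ A : Finset T, IsLow A ∧ B0 ⊆ A ∧ ∀ y : E, (∀ t ∈ A, y t = 0) → |f y| ≤ η * ‖y‖ := by
  obtain ⟨m, hm⟩ := tail_comp f (half_pos hη)
  obtain ⟨B, hB⟩ := tail_head f m (half_pos hη)
  obtain ⟨A, hA, hBA⟩ := exists_low (B ∪ B0)
  refine ⟨A, hA, subset_union_right.trans hBA, fun y hy => ?_⟩
  have h0 := Finsupp.filter_add_filter_not y (fun t => comp t < m)
  have h1 := hB (y.filter (fun t => comp t < m)) (fun t ht => by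
    rw [Finsupp.filter_apply, if_neg (not_lt.2 ht)]) (fun t ht => by
    rw [Finsupp.filter_apply, hy t (hBA (mem_union_left _ ht))]; simp)
  have h2 := hm (y.filter (fun t => ¬ comp t < m)) (fun t ht => by
    rw [Finsupp.filter_apply, if_neg (not_not.2 ht)])
  have h3 := norm_filter_le _ (conv_comp_lt m) y
  have h4 := norm_filter_le _ (conv_comp_ge m) y
  have h5 : f y = f (y.filter (fun t => comp t < m)) + f (y.filter (fun t => ¬ comp t < m)) := by
    rw [← map_add, h0]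
  rw [h5]
  refine (abs_add_le _ _).trans ?_
  nlinarith

lemma filter_mem_eq_sum (A : Finset T) (y : E) :
    y.filter (fun t => t ∈ A) = ∑ t ∈ A, y t • Finsupp.single t (1 : ℝ) := by
  ext v
  rw [Finsupp.filter_apply, Finsupp.finsetSum_apply]
  simp only [Finsupp.smul_single, smul_eq_mul, mul_one, Finsupp.single_apply]
  rw [Finset.sum_ite_eq']

/-- The canonical image of `E` is dense in its bidual. -/
theorem dense_image (ψ : StrongDual ℝ XX) {η : ℝ} (hη : 0 < η) :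
    ∃ y : E, ∀ g : XX, |ψ g - g y| ≤ η * ‖g‖ := by
  obtain ⟨θ, hθ, H⟩ := tail_small ψ hη
  have hK := norm_nonneg ψ
  have hθ' : 0 < θ / (‖ψ‖ + 1) := by positivity
  set θ' := θ / (‖ψ‖ + 1) with hθ'def
  have hθθ : θ' * (‖ψ‖ + 1) = θ := by rw [hθ'def]; field_simp
  obtain ⟨f0, hf1, hf2⟩ := exists_norming ψ hθ'
  obtain ⟨A, hA, -, hA2⟩ := shrinking f0 hθ' ∅
  let P := proj (fun t => t ∈ A) hA.conv_mem
  let R := proj (fun t => t ∉ A) hA.conv_notMem
  have hPR : ∀ u : E, P u + R u = u := fun u =>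
    Finsupp.filter_add_filter_not u (fun t => t ∈ A)
  have hR1 : ∀ u : E, ‖R u‖ ≤ ‖u‖ := fun u => norm_filter_le _ hA.conv_notMem u
  have hsq : ∀ u : E, ‖P u‖ ^ 2 + ‖R u‖ ^ 2 ≤ ‖u‖ ^ 2 := fun u => by
    rw [norm_sq, norm_sq, norm_sq]
    exact Q_filter_add_le _ _ hA.conv_mem hA.conv_notMem (fun t h1 h2 => h2 h1) u
  have hsplit : ∀ g : XX, g = g.comp P + g.comp R := fun g => by
    ext1 u
    simp only [add_apply, ContinuousLinearMap.comp_apply]
    rw [← map_add, hPR]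
  have hf0R : ‖f0.comp R‖ ≤ θ' := by
    refine ContinuousLinearMap.opNorm_le_bound _ hθ'.le fun u => ?_
    rw [ContinuousLinearMap.comp_apply, Real.norm_eq_abs]
    refine (hA2 (R u) fun t ht => ?_).trans (mul_le_mul_of_nonneg_left (hR1 u) hθ'.le)
    simp [R, ht]
  have hψ1 : ‖ψ‖ - θ ≤ ψ (f0.comp P) := by
    have h1 : ψ f0 = ψ (f0.comp P) + ψ (f0.comp R) := by rw [← map_add, ← hsplit]
    have h2 := ψ.le_opNorm (f0.comp R)
    rw [Real.norm_eq_abs] at h2
    have h3 := (le_abs_self _).trans (h2.trans (mul_le_mul_of_nonneg_left hf0R hK))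
    nlinarith
  have hR : ∀ g : XX, ‖g‖ ≤ 1 → |ψ (g.comp R)| ≤ η := fun g hg => by
    refine H (f0.comp P) (g.comp R) hψ1 fun s => ?_
    refine ContinuousLinearMap.opNorm_le_bound _ (by positivity) fun u => ?_
    simp only [add_apply, smul_apply,
      ContinuousLinearMap.comp_apply, smul_eq_mul, Real.norm_eq_abs]
    have h1 : |f0 (P u)| ≤ ‖P u‖ := by
      have := f0.le_opNorm (P u)
      rw [Real.norm_eq_abs] at this
      nlinarith [norm_nonneg (P u)]
    have h2 : |g (R u)| ≤ ‖R u‖ := by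
      have := g.le_opNorm (R u)
      rw [Real.norm_eq_abs] at this
      nlinarith [norm_nonneg (R u)]
    have h3 : |f0 (P u) + s * g (R u)| ≤ ‖P u‖ + |s| * ‖R u‖ := by
      refine (abs_add_le _ _).trans ?_
      rw [abs_mul]
      exact add_le_add h1 (mul_le_mul_of_nonneg_left h2 (abs_nonneg _))
    refine h3.trans ?_
    have h4 := hsq u
    have h5 : (‖P u‖ + |s| * ‖R u‖) ^ 2 ≤ ((1 + s ^ 2 / 2) * ‖u‖) ^ 2 := by
      have h6 : |s| ^ 2 = s ^ 2 := sq_abs s
      have h7 : (‖P u‖ + |s| * ‖R u‖) ^ 2 ≤ (1 + s ^ 2) * (‖P u‖ ^ 2 + ‖R u‖ ^ 2) := by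
        rw [← h6]
        nlinarith [sq_nonneg (|s| * ‖P u‖ - ‖R u‖)]
      have h8 : (1 + s ^ 2) * (‖P u‖ ^ 2 + ‖R u‖ ^ 2) ≤ (1 + s ^ 2) * ‖u‖ ^ 2 :=
        mul_le_mul_of_nonneg_left h4 (by positivity)
      have h9 : 0 ≤ (s ^ 2) ^ 2 / 4 * ‖u‖ ^ 2 := by positivity
      nlinarith
    exact (pow_le_pow_iff_left₀ (by positivity) (by positivity) two_ne_zero).1 h5
  refine ⟨∑ t ∈ A, ψ (ev t) • Finsupp.single t (1 : ℝ), fun g => ?_⟩
  have hP : g.comp P = ∑ t ∈ A, g (Finsupp.single t 1) • ev t := by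
    ext1 u
    rw [ContinuousLinearMap.comp_apply, _root_.sum_apply]
    simp only [P, proj_apply]
    rw [filter_mem_eq_sum, map_sum]
    refine sum_congr rfl fun t _ => ?_
    rw [map_smul]
    simp [mul_comm]
  have h1 : ψ g - g (∑ t ∈ A, ψ (ev t) • Finsupp.single t (1 : ℝ)) = ψ (g.comp R) := by
    have h2 : ψ g = ψ (g.comp P) + ψ (g.comp R) := by rw [← map_add, ← hsplit]
    have h3 : ψ (g.comp P) = g (∑ t ∈ A, ψ (ev t) • Finsupp.single t (1 : ℝ)) := by
      rw [hP, map_sum, map_sum]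
      refine sum_congr rfl fun t _ => ?_
      rw [map_smul, map_smul]
      simp [mul_comm]
    linarith
  rw [h1]
  have := bound_of_unit (ψ.comp ((ContinuousLinearMap.compL ℝ E E ℝ).flip R)) (fun _ => True)
    (fun _ _ _ => trivial) (η := η) (fun v _ hv => hR v hv) g trivial
  exact this

theorem reflexive : Function.Surjective (NormedSpace.inclusionInDoubleDual ℝ XX) := by
  intro Φ
  refine ⟨Φ.comp (NormedSpace.inclusionInDoubleDual ℝ E), ?_⟩
  ext1 ψ
  rw [NormedSpace.dual_def]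
  set g : XX := Φ.comp (NormedSpace.inclusionInDoubleDual ℝ E) with hg
  refine eq_of_forall_dist_le fun ε hε => ?_
  have hC : 0 < ‖Φ‖ + ‖g‖ + 1 := by positivity
  have hη : 0 < ε / (‖Φ‖ + ‖g‖ + 1) := by positivity
  set η := ε / (‖Φ‖ + ‖g‖ + 1) with hηdef
  have hηε : η * (‖Φ‖ + ‖g‖ + 1) = ε := by rw [hηdef]; field_simp
  obtain ⟨y, hy⟩ := dense_image ψ hη
  have h1 : ‖ψ - NormedSpace.inclusionInDoubleDual ℝ E y‖ ≤ η :=
    ContinuousLinearMap.opNorm_le_bound _ hη.le fun u => hy u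
  have h2 := Φ.le_opNorm (ψ - NormedSpace.inclusionInDoubleDual ℝ E y)
  rw [map_sub, Real.norm_eq_abs] at h2
  have h3 : Φ (NormedSpace.inclusionInDoubleDual ℝ E y) = g y := rfl
  rw [h3] at h2
  have h4 := hy g
  have h5 := h2.trans (mul_le_mul_of_nonneg_left h1 (norm_nonneg Φ))
  rw [Real.dist_eq, abs_le]
  rw [abs_le] at h4 h5
  constructor <;> nlinarith [h4.1, h4.2, h5.1, h5.2]

end Vale.Agent.P069
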