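import Mathlib

/-!
The forest of countably branching trees of height `n`, `n : ℕ`, its segments, and the James tree
norm on finitely supported functions.
-/

namespace Vale.Agent.P069

open Finset

/-- Nodes: a component index `n` and a list of length at most `n`. -/
def T : Type := {p : ℕ × List ℕ // p.2.length ≤ p.1}

noncomputable instance instDecEqT : DecidableEq T := Classical.decEq T

instance instPartialOrderT : PartialOrder T where
  le a b := a.1.1 = b.1.1 ∧ a.1.2 <:+ b.1.2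
  le_refl a := ⟨rfl, List.suffix_refl _⟩
  le_trans a b c h1 h2 := ⟨h1.1.trans h2.1, h1.2.trans h2.2⟩
  le_antisymm a b h1 h2 :=
    Subtype.ext (Prod.ext h1.1 (List.IsSuffix.eq_of_length_le h1.2 h2.2.length_le))

/-- The component index. -/
def comp (a : T) : ℕ := a.1.1

lemma le_def {a b : T} : a ≤ b ↔ a.1.1 = b.1.1 ∧ a.1.2 <:+ b.1.2 := Iff.rfl

lemma comp_eq {a b : T} (h : a ≤ b) : comp a = comp b := h.1

lemma chain {a b c : T} (h1 : a ≤ c) (h2 : b ≤ c) : a ≤ b ∨ b ≤ a := by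
  rcases List.suffix_or_suffix_of_suffix h1.2 h2.2 with h | h
  · exact Or.inl ⟨h1.1.trans h2.1.symm, h⟩
  · exact Or.inr ⟨h2.1.trans h1.1.symm, h⟩

lemma injOn_length (v : T) : Set.InjOn (fun w : T => w.1.2.length) {w | w ≤ v} := by
  intro a ha b hb hab
  rcases chain ha hb with h | h
  · exact Subtype.ext (Prod.ext h.1 (List.IsSuffix.eq_of_length h.2 hab))
  · exact (Subtype.ext (Prod.ext h.1 (List.IsSuffix.eq_of_length h.2 hab.symm))).symm

lemma finite_below (v : T) : {w : T | w ≤ v}.Finite := by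
  refine Set.Finite.of_finite_image ?_ (injOn_length v)
  refine (Set.finite_le_nat v.1.2.length).subset ?_
  rintro _ ⟨w, hw, rfl⟩
  exact hw.2.length_le

/-- The finite set of nodes below `v`. -/
noncomputable def below (v : T) : Finset T := (finite_below v).toFinset

@[simp] lemma mem_below {v w : T} : w ∈ below v ↔ w ≤ v := by simp [below]

lemma card_below (v : T) : (below v).card ≤ comp v + 1 := by
  have h : (below v).card ≤ (Finset.range (comp v + 1)).card := by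
    refine Finset.card_le_card_of_injOn (fun w : T => w.1.2.length) ?_ ?_
    · intro w hw
      have hw' : w ≤ v := by simpa using hw
      have h1 := w.2
      have h2 : w.1.1 = comp v := hw'.1
      simp only [coe_range, Set.mem_Iio]
      omega
    · intro a ha b hb hab
      exact injOn_length v (by simpa using ha) (by simpa using hb) hab
  simpa using h

/-- The root of component `n`. -/
def root (n : ℕ) : T := ⟨(n, []), by simp⟩

/-- The `i`-th child of a node that is not at maximal height. -/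
def child (v : T) (h : v.1.2.length < v.1.1) (i : ℕ) : T := ⟨(v.1.1, i :: v.1.2), by simpa using h⟩

lemma child_injective (v : T) (h : v.1.2.length < v.1.1) : Function.Injective (child v h) := by
  intro i j hij
  have := congrArg (fun w : T => w.1.2) hij
  simpa [child] using this

lemma below_root (n : ℕ) : below (root n) = {root n} := by
  ext w
  simp only [mem_below, mem_singleton]
  constructor
  · intro hw
    refine Subtype.ext (Prod.ext hw.1 ?_)
    have := hw.2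
    simpa [root] using this
  · rintro rfl; exact le_rfl

lemma child_notMem_below (v : T) (h : v.1.2.length < v.1.1) (i : ℕ) : child v h i ∉ below v := by
  intro hw
  have := (mem_below.1 hw).2.length_le
  simp [child] at this

lemma below_child (v : T) (h : v.1.2.length < v.1.1) (i : ℕ) :
    below (child v h i) = insert (child v h i) (below v) := by
  ext w
  simp only [mem_below, mem_insert]
  constructor
  · intro hw
    have h2 := hw.2
    simp only [child, List.suffix_cons_iff] at h2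
    rcases h2 with h2 | h2
    · exact Or.inl (Subtype.ext (Prod.ext hw.1 h2))
    · exact Or.inr ⟨hw.1, h2⟩
  · rintro (rfl | hw)
    · exact le_rfl
    · exact ⟨hw.1, hw.2.trans (List.suffix_cons _ _)⟩

/-- Segments: finite order-convex chains (the empty set included). -/
def IsSeg (S : Finset T) : Prop :=
  (∀ a ∈ S, ∀ b ∈ S, a ≤ b ∨ b ≤ a) ∧ (∀ a ∈ S, ∀ c ∈ S, ∀ b, a ≤ b → b ≤ c → b ∈ S)

/-- Order-convex predicates. -/
def Conv (p : T → Prop) : Prop := ∀ a b c, a ≤ b → b ≤ c → p a → p c → p b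

lemma isSeg_empty : IsSeg ∅ := ⟨by simp, by simp⟩

lemma isSeg_singleton (t : T) : IsSeg {t} := by
  refine ⟨by simp, ?_⟩
  intro a ha c hc b h1 h2
  simp only [mem_singleton] at *
  subst ha; subst hc
  exact le_antisymm h2 h1

lemma isSeg_below (v : T) : IsSeg (below v) := by
  refine ⟨fun a ha b hb => chain (mem_below.1 ha) (mem_below.1 hb), ?_⟩
  intro a _ c hc b _ h2
  exact mem_below.2 (h2.trans (mem_below.1 hc))

lemma IsSeg.filter {S : Finset T} (hS : IsSeg S) {p : T → Prop} [DecidablePred p] (hp : Conv p) :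
    IsSeg (S.filter p) := by
  refine ⟨fun a ha b hb => hS.1 a (mem_filter.1 ha).1 b (mem_filter.1 hb).1, ?_⟩
  intro a ha c hc b h1 h2
  rw [mem_filter] at *
  exact ⟨hS.2 a ha.1 c hc.1 b h1 h2, hp a b c h1 h2 ha.2 hc.2⟩

lemma exists_max_of_chain {S : Finset T} (hS : ∀ a ∈ S, ∀ b ∈ S, a ≤ b ∨ b ≤ a)
    (hne : S.Nonempty) : ∃ b ∈ S, ∀ w ∈ S, w ≤ b := by
  obtain ⟨b, hb⟩ := S.exists_maximal hne
  refine ⟨b, hb.1, fun w hw => ?_⟩
  rcases hS w hw b hb.1 with h | h
  · exact h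
  · exact hb.2 hw h

lemma exists_min_of_chain {S : Finset T} (hS : ∀ a ∈ S, ∀ b ∈ S, a ≤ b ∨ b ≤ a)
    (hne : S.Nonempty) : ∃ a ∈ S, ∀ w ∈ S, a ≤ w := by
  obtain ⟨a, ha⟩ := S.exists_minimal hne
  refine ⟨a, ha.1, fun w hw => ?_⟩
  rcases hS w hw a ha.1 with h | h
  · exact ha.2 hw h
  · exact h

lemma IsSeg.card_le {S : Finset T} (hS : IsSeg S) {m : ℕ} (hm : ∀ w ∈ S, comp w < m) :
    S.card ≤ m := by
  rcases S.eq_empty_or_nonempty with rfl | hne
  · simp
  obtain ⟨b, hb, hb'⟩ := exists_max_of_chain hS.1 hne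
  have h1 : S ⊆ below b := fun w hw => mem_below.2 (hb' w hw)
  have h2 := card_le_card h1
  have h3 := card_below b
  have h4 := hm b hb
  omega

/-- A family of pairwise disjoint segments. -/
def IsFam {ι : Type} (I : Finset ι) (S : ι → Finset T) : Prop :=
  (∀ i ∈ I, IsSeg (S i)) ∧ (∀ i ∈ I, ∀ j ∈ I, i ≠ j → Disjoint (S i) (S j))

/-- The values whose supremum is the square of the James tree norm. -/
def vals (y : T →₀ ℝ) : Set ℝ :=
  {r | ∃ (ι : Type) (I : Finset ι) (S : ι → Finset T), IsFam I S ∧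
    r = ∑ i ∈ I, (∑ t ∈ S i, y t) ^ 2}

/-- The square of the James tree norm. -/
noncomputable def Q (y : T →₀ ℝ) : ℝ := sSup (vals y)

lemma sum_fam_le {ι : Type} {I : Finset ι} {S : ι → Finset T} (h : IsFam I S) (y : T →₀ ℝ)
    (g : ℝ → ℝ) (hg0 : g 0 = 0) (hg : ∀ r, 0 ≤ g r) :
    ∑ i ∈ I, ∑ t ∈ S i, g (y t) ≤ ∑ t ∈ y.support, g (y t) := by
  classical
  rw [← Finset.sum_biUnion]
  · have h1 : ∑ t ∈ I.biUnion S, g (y t)
        = ∑ t ∈ (I.biUnion S).filter (fun t => y t ≠ 0), g (y t) := by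
      refine (Finset.sum_filter_of_ne ?_).symm
      intro t _ ht h0
      exact ht (by rw [h0, hg0])
    rw [h1]
    refine Finset.sum_le_sum_of_subset_of_nonneg ?_ (fun t _ _ => hg _)
    intro t ht
    exact Finsupp.mem_support_iff.2 (mem_filter.1 ht).2
  · intro i hi j hj hij
    exact h.2 i hi j hj hij

lemma val_le_l1 {ι : Type} {I : Finset ι} {S : ι → Finset T} (h : IsFam I S) (y : T →₀ ℝ) :
    ∑ i ∈ I, (∑ t ∈ S i, y t) ^ 2 ≤ (∑ t ∈ y.support, |y t|) ^ 2 := by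
  have h1 : ∑ i ∈ I, ∑ t ∈ S i, |y t| ≤ ∑ t ∈ y.support, |y t| :=
    sum_fam_le h y (fun r => |r|) abs_zero abs_nonneg
  have h2 : ∑ i ∈ I, (∑ t ∈ S i, y t) ^ 2 ≤ ∑ i ∈ I, (∑ t ∈ S i, |y t|) ^ 2 := by
    refine sum_le_sum fun i _ => ?_
    rw [← sq_abs]
    exact pow_le_pow_left₀ (abs_nonneg _) (abs_sum_le_sum_abs _ _) 2
  have h3 : ∑ i ∈ I, (∑ t ∈ S i, |y t|) ^ 2 ≤ (∑ i ∈ I, ∑ t ∈ S i, |y t|) ^ 2 :=
    sum_sq_le_sq_sum_of_nonneg fun i _ => sum_nonneg fun t _ => abs_nonneg _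
  refine h2.trans (h3.trans ?_)
  exact pow_le_pow_left₀ (sum_nonneg fun i _ => sum_nonneg fun t _ => abs_nonneg _) h1 2

lemma isFam_empty : IsFam (∅ : Finset Unit) (fun _ => ∅) := ⟨by simp, by simp⟩

lemma vals_nonempty (y : T →₀ ℝ) : (vals y).Nonempty :=
  ⟨_, Unit, ∅, fun _ => ∅, isFam_empty, rfl⟩

lemma vals_bdd (y : T →₀ ℝ) : BddAbove (vals y) := by
  refine ⟨(∑ t ∈ y.support, |y t|) ^ 2, ?_⟩
  rintro _ ⟨ι, I, S, h, rfl⟩
  exact val_le_l1 h y

lemma le_Q {ι : Type} {I : Finset ι} {S : ι → Finset T} (h : IsFam I S) (y : T →₀ ℝ) :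
    ∑ i ∈ I, (∑ t ∈ S i, y t) ^ 2 ≤ Q y :=
  le_csSup (vals_bdd y) ⟨ι, I, S, h, rfl⟩

lemma Q_le {y : T →₀ ℝ} {C : ℝ} (h : ∀ (ι : Type) (I : Finset ι) (S : ι → Finset T), IsFam I S →
    ∑ i ∈ I, (∑ t ∈ S i, y t) ^ 2 ≤ C) : Q y ≤ C := by
  refine csSup_le (vals_nonempty y) ?_
  rintro _ ⟨ι, I, S, h', rfl⟩
  exact h ι I S h'

lemma Q_nonneg (y : T →₀ ℝ) : 0 ≤ Q y := by
  simpa using le_Q isFam_empty y

lemma Q_le_l1 (y : T →₀ ℝ) : Q y ≤ (∑ t ∈ y.support, |y t|) ^ 2 :=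
  Q_le fun _ _ _ h => val_le_l1 h y

lemma seg_sq_le_Q {S : Finset T} (hS : IsSeg S) (y : T →₀ ℝ) : (∑ t ∈ S, y t) ^ 2 ≤ Q y := by
  have : IsFam ({()} : Finset Unit) (fun _ => S) := ⟨fun _ _ => hS, by simp⟩
  simpa using le_Q this y

lemma sum_sq_le_Q (I : Finset T) (y : T →₀ ℝ) : ∑ t ∈ I, y t ^ 2 ≤ Q y := by
  have : IsFam I (fun t => {t}) := ⟨fun t _ => isSeg_singleton t, by
    intro i _ j _ hij
    simpa using hij⟩
  simpa using le_Q this y

lemma Q_smul_le (c : ℝ) (y : T →₀ ℝ) : Q (c • y) ≤ c ^ 2 * Q y := by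
  refine Q_le fun ι I S h => ?_
  have : ∑ i ∈ I, (∑ t ∈ S i, (c • y) t) ^ 2 = c ^ 2 * ∑ i ∈ I, (∑ t ∈ S i, y t) ^ 2 := by
    rw [mul_sum]
    refine sum_congr rfl fun i _ => ?_
    simp only [Finsupp.smul_apply, smul_eq_mul]
    rw [← mul_sum, mul_pow]
  rw [this]
  exact mul_le_mul_of_nonneg_left (le_Q h y) (sq_nonneg c)

lemma Q_add_le (x y : T →₀ ℝ) : Q (x + y) ≤ (√(Q x) + √(Q y)) ^ 2 := by
  refine Q_le fun ι I S h => ?_
  have h1 := le_Q h x
  have h2 := le_Q h y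
  have h3 := Real.sum_mul_le_sqrt_mul_sqrt I (fun i => ∑ t ∈ S i, x t) (fun i => ∑ t ∈ S i, y t)
  have h4 : √(∑ i ∈ I, (∑ t ∈ S i, x t) ^ 2) * √(∑ i ∈ I, (∑ t ∈ S i, y t) ^ 2)
      ≤ √(Q x) * √(Q y) :=
    mul_le_mul (Real.sqrt_le_sqrt h1) (Real.sqrt_le_sqrt h2) (Real.sqrt_nonneg _)
      (Real.sqrt_nonneg _)
  have h5 : ∑ i ∈ I, (∑ t ∈ S i, (x + y) t) ^ 2 = ∑ i ∈ I, (∑ t ∈ S i, x t) ^ 2
      + 2 * ∑ i ∈ I, (∑ t ∈ S i, x t) * (∑ t ∈ S i, y t) + ∑ i ∈ I, (∑ t ∈ S i, y t) ^ 2 := by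
    rw [mul_sum, ← sum_add_distrib, ← sum_add_distrib]
    refine sum_congr rfl fun i _ => ?_
    simp only [Finsupp.add_apply, sum_add_distrib]
    ring
  have h6 := Real.sq_sqrt (Q_nonneg x)
  have h7 := Real.sq_sqrt (Q_nonneg y)
  rw [h5]
  nlinarith

/-- The James tree norm as a group norm. -/
noncomputable def jtNorm : AddGroupNorm (T →₀ ℝ) where
  toFun y := √(Q y)
  map_zero' := by
    have := Q_le_l1 0
    simp only [Finsupp.support_zero, sum_empty] at this
    exact Real.sqrt_eq_zero_of_nonpos (by simpa using this)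
  add_le' x y := by
    refine Real.sqrt_le_iff.2 ⟨by positivity, Q_add_le x y⟩
  neg' y := by
    have h1 : Q (-y) ≤ Q y := by simpa using Q_smul_le (-1) y
    have h2 : Q y ≤ Q (-y) := by simpa using Q_smul_le (-1) (-y)
    simp only [le_antisymm h1 h2]
  eq_zero_of_map_eq_zero' y hy := by
    ext t
    have h1 : Q y ≤ 0 := Real.sqrt_eq_zero'.1 hy
    have h2 := sum_sq_le_Q {t} y
    simp only [sum_singleton] at h2
    simpa using pow_eq_zero_iff (two_ne_zero) |>.1 (le_antisymm (h2.trans h1) (sq_nonneg _))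

noncomputable instance instNormedE : NormedAddCommGroup (T →₀ ℝ) := jtNorm.toNormedAddCommGroup

lemma norm_def (y : T →₀ ℝ) : ‖y‖ = √(Q y) := rfl

lemma norm_sq (y : T →₀ ℝ) : ‖y‖ ^ 2 = Q y := by rw [norm_def, Real.sq_sqrt (Q_nonneg y)]

noncomputable instance instNormedSpaceE : NormedSpace ℝ (T →₀ ℝ) where
  norm_smul_le c y := by
    rw [norm_def, norm_def, Real.norm_eq_abs, ← Real.sqrt_sq_eq_abs,
      ← Real.sqrt_mul (sq_nonneg c)]
    exact Real.sqrt_le_sqrt (Q_smul_le c y)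

end Vale.Agent.P069
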