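import Vale.Agent.P069.Forest

/-!
Restriction estimates for the James tree norm and the key sign-splitting estimate.
-/

namespace Vale.Agent.P069

open Finset

lemma sum_filter_apply (p : T → Prop) [DecidablePred p] (y : T →₀ ℝ) (S : Finset T) :
    ∑ t ∈ S, (y.filter p) t = ∑ t ∈ S.filter p, y t := by
  rw [Finset.sum_filter]
  refine sum_congr rfl fun t _ => ?_
  rw [Finsupp.filter_apply]

lemma IsFam.filter {ι : Type} {I : Finset ι} {S : ι → Finset T} (h : IsFam I S) {p : T → Prop}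
    [DecidablePred p] (hp : Conv p) : IsFam I (fun i => (S i).filter p) :=
  ⟨fun i hi => (h.1 i hi).filter hp, fun i hi j hj hij =>
    (h.2 i hi j hj hij).mono (filter_subset _ _) (filter_subset _ _)⟩

lemma IsFam.sum {ι κ : Type} {I : Finset ι} {S : ι → Finset T} {J : Finset κ} {R : κ → Finset T}
    (h1 : IsFam I S) (h2 : IsFam J R) (h : ∀ i ∈ I, ∀ j ∈ J, Disjoint (S i) (R j)) :
    IsFam (I.disjSum J) (Sum.elim S R) := by
  constructor
  · rintro (i | j) hi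
    · exact h1.1 i (by simpa using hi)
    · exact h2.1 j (by simpa using hi)
  · rintro (i | i) hi (j | j) hj hij
    · exact h1.2 i (by simpa using hi) j (by simpa using hj) (fun h => hij (by rw [h]))
    · exact h i (by simpa using hi) j (by simpa using hj)
    · exact (h j (by simpa using hj) i (by simpa using hi)).symm
    · exact h2.2 i (by simpa using hi) j (by simpa using hj) (fun h => hij (by rw [h]))

lemma le_Q_two {ι κ : Type} {I : Finset ι} {S : ι → Finset T} {J : Finset κ} {R : κ → Finset T}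
    (h1 : IsFam I S) (h2 : IsFam J R) (h : ∀ i ∈ I, ∀ j ∈ J, Disjoint (S i) (R j))
    (y : T →₀ ℝ) :
    ∑ i ∈ I, (∑ t ∈ S i, y t) ^ 2 + ∑ j ∈ J, (∑ t ∈ R j, y t) ^ 2 ≤ Q y := by
  have := le_Q (h1.sum h2 h) y
  rw [Finset.sum_disjSum] at this
  simpa using this

/-- Lower square estimate for two disjoint convex sets. -/
lemma Q_filter_add_le (p q : T → Prop) [DecidablePred p] [DecidablePred q] (hp : Conv p)
    (hq : Conv q) (hpq : ∀ t, p t → q t → False) (y : T →₀ ℝ) :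
    Q (y.filter p) + Q (y.filter q) ≤ Q y := by
  have h1 : ∀ (κ : Type) (J : Finset κ) (R : κ → Finset T), IsFam J R →
      Q (y.filter p) ≤ Q y - ∑ j ∈ J, (∑ t ∈ R j, (y.filter q) t) ^ 2 := by
    intro κ J R hR
    refine Q_le fun ι I S hS => ?_
    have := le_Q_two (hS.filter hp) (hR.filter hq) (fun i _ j _ => by
      rw [Finset.disjoint_left]
      intro t h1 h2
      exact hpq t (mem_filter.1 h1).2 (mem_filter.1 h2).2) y
    simp only [sum_filter_apply]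
    linarith
  have h2 : Q (y.filter q) ≤ Q y - Q (y.filter p) := by
    refine Q_le fun κ J R hR => ?_
    have := h1 κ J R hR
    linarith
  linarith

lemma Q_filter_le (p : T → Prop) [DecidablePred p] (hp : Conv p) (y : T →₀ ℝ) :
    Q (y.filter p) ≤ Q y := by
  have := Q_filter_add_le p (fun _ => False) hp (fun _ _ _ _ _ h _ => h) (fun _ _ h => h) y
  have h2 := Q_nonneg (y.filter (fun _ => False))
  linarith

/-- Upper square estimate for functions living on different components. -/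
lemma Q_add_le_of_comp (m : ℕ) (x y : T →₀ ℝ) (hx : ∀ t, m ≤ comp t → x t = 0)
    (hy : ∀ t, comp t < m → y t = 0) : Q (x + y) ≤ Q x + Q y := by
  refine Q_le fun ι I S hS => ?_
  have h1 := le_Q hS x
  have h2 := le_Q hS y
  have h3 : ∑ i ∈ I, (∑ t ∈ S i, (x + y) t) ^ 2
      = ∑ i ∈ I, (∑ t ∈ S i, x t) ^ 2 + ∑ i ∈ I, (∑ t ∈ S i, y t) ^ 2 := by
    rw [← sum_add_distrib]
    refine sum_congr rfl fun i hi => ?_
    simp only [Finsupp.add_apply, sum_add_distrib]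
    rcases (S i).eq_empty_or_nonempty with he | ⟨a, ha⟩
    · simp [he]
    have hc : ∀ t ∈ S i, comp t = comp a := fun t ht => by
      rcases (hS.1 i hi).1 t ht a ha with h | h
      · exact comp_eq h
      · exact (comp_eq h).symm
    rcases lt_or_ge (comp a) m with h | h
    · have : ∑ t ∈ S i, y t = 0 := sum_eq_zero fun t ht => hy t (by rw [hc t ht]; exact h)
      rw [this]; ring
    · have : ∑ t ∈ S i, x t = 0 := sum_eq_zero fun t ht => hx t (by rw [hc t ht]; exact h)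
      rw [this]; ring
  linarith

lemma conv_comp_lt (m : ℕ) : Conv (fun t => comp t < m) := by
  intro a b c h1 _ ha _
  show comp b < m
  rw [← comp_eq h1]; exact ha

lemma conv_comp_ge (m : ℕ) : Conv (fun t => ¬ comp t < m) := by
  intro a b c h1 _ ha _
  show ¬ comp b < m
  rw [← comp_eq h1]; exact ha

/-- On the first `m` components the norm is dominated by the Euclidean one. -/
lemma Q_le_of_comp (m : ℕ) (y : T →₀ ℝ) (hy : ∀ t, m ≤ comp t → y t = 0) :
    Q y ≤ m * ∑ t ∈ y.support, y t ^ 2 := by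
  refine Q_le fun ι I S hS => ?_
  have h1 : ∑ i ∈ I, ∑ t ∈ S i, y t ^ 2 ≤ ∑ t ∈ y.support, y t ^ 2 :=
    sum_fam_le hS y (fun r => r ^ 2) (by simp) sq_nonneg
  have h2 : ∀ i ∈ I, (∑ t ∈ S i, y t) ^ 2 ≤ m * ∑ t ∈ S i, y t ^ 2 := by
    intro i hi
    have h3 : ∑ t ∈ S i, y t = ∑ t ∈ (S i).filter (fun t => comp t < m), y t := by
      refine (Finset.sum_filter_of_ne ?_).symm
      intro t _ ht
      by_contra hc
      exact ht (hy t (not_lt.1 hc))
    have h4 : ((S i).filter (fun t => comp t < m)).card ≤ m :=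
      ((hS.1 i hi).filter (conv_comp_lt m)).card_le fun w hw => (mem_filter.1 hw).2
    have h5 := sq_sum_le_card_mul_sum_sq (s := (S i).filter (fun t => comp t < m))
      (f := fun t => y t)
    have h6 : ∑ t ∈ (S i).filter (fun t => comp t < m), y t ^ 2 ≤ ∑ t ∈ S i, y t ^ 2 :=
      sum_le_sum_of_subset_of_nonneg (filter_subset _ _) fun t _ _ => sq_nonneg _
    rw [h3]
    refine h5.trans (mul_le_mul (by exact_mod_cast h4) h6
      (sum_nonneg fun t _ => sq_nonneg _) (Nat.cast_nonneg _))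
  calc ∑ i ∈ I, (∑ t ∈ S i, y t) ^ 2 ≤ ∑ i ∈ I, m * ∑ t ∈ S i, y t ^ 2 := sum_le_sum h2
    _ = m * ∑ i ∈ I, ∑ t ∈ S i, y t ^ 2 := by rw [mul_sum]
    _ ≤ _ := mul_le_mul_of_nonneg_left h1 (Nat.cast_nonneg _)

/-- Finite lower sets. -/
def IsLow (A : Finset T) : Prop := ∀ a b, a ≤ b → b ∈ A → a ∈ A

lemma IsLow.conv_mem {A : Finset T} (hA : IsLow A) : Conv (fun t => t ∈ A) :=
  fun _ b c _ h2 _ hc => hA b c h2 hc

lemma IsLow.conv_notMem {A : Finset T} (hA : IsLow A) : Conv (fun t => t ∉ A) :=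
  fun a b _ h1 _ ha _ hb => ha (hA a b h1 hb)

lemma exists_low (B : Finset T) : ∃ A : Finset T, IsLow A ∧ B ⊆ A := by
  refine ⟨B.biUnion below, ?_, ?_⟩
  · intro a b hab hb
    obtain ⟨c, hc, hb⟩ := mem_biUnion.1 hb
    exact mem_biUnion.2 ⟨c, hc, mem_below.2 (hab.trans (mem_below.1 hb))⟩
  · intro b hb
    exact mem_biUnion.2 ⟨b, hb, mem_below.2 le_rfl⟩

/-- Initial sums. -/
noncomputable def G (y : T →₀ ℝ) (v : T) : ℝ := ∑ w ∈ below v, y w

/-- The trace of `A` below `v`. -/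
noncomputable def tr (A : Finset T) (v : T) : Finset T := (below v).filter (fun t => t ∈ A)

/-- `R` is a final part of `L`. -/
def Fin' (L R : Finset T) : Prop := R ⊆ L ∧ ∀ a ∈ R, ∀ b ∈ L, a ≤ b → b ∈ R

lemma Fin'.nested {A : Finset T} {v : T} {R R' : Finset T} (h : Fin' (tr A v) R)
    (h' : Fin' (tr A v) R') : R ⊆ R' ∨ R' ⊆ R := by
  by_contra hc
  push Not at hc
  obtain ⟨h1, h2⟩ := hc
  obtain ⟨a, ha, ha'⟩ := not_subset.1 h1
  obtain ⟨b, hb, hb'⟩ := not_subset.1 h2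
  have hav : a ≤ v := mem_below.1 (mem_filter.1 (h.1 ha)).1
  have hbv : b ≤ v := mem_below.1 (mem_filter.1 (h'.1 hb)).1
  rcases chain hav hbv with hab | hab
  · exact hb' (h.2 a ha b (h'.1 hb) hab)
  · exact ha' (h'.2 b hb a (h.1 ha) hab)

lemma tr_eq {A : Finset T} (hA : IsLow A) {a b : T} (hab : a ≤ b) (ha : a ∉ A) :
    tr A a = tr A b := by
  ext w
  simp only [tr, mem_filter, mem_below]
  constructor
  · rintro ⟨h1, h2⟩; exact ⟨h1.trans hab, h2⟩
  · rintro ⟨h1, h2⟩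
    rcases chain h1 hab with h | h
    · exact ⟨h, h2⟩
    · exact absurd (hA a w h h2) ha

lemma finite_range_G (y : T →₀ ℝ) : (Set.range (G y)).Finite := by
  have : Set.range (G y) ⊆ (fun s : Finset T => ∑ w ∈ s, y w) '' (y.support.powerset : Set _) := by
    rintro _ ⟨v, rfl⟩
    refine ⟨(below v).filter (fun t => y t ≠ 0), ?_, ?_⟩
    · simp only [coe_powerset, Set.mem_preimage, Set.mem_powerset_iff, coe_subset]
      intro t ht
      exact Finsupp.mem_support_iff.2 (mem_filter.1 ht).2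
    · exact Finset.sum_filter_of_ne fun t _ ht => ht
  exact ((y.support.powerset.finite_toSet).image _).subset this

lemma exists_R {A : Finset T} (hA : IsLow A) (y : T →₀ ℝ) (hy : ∀ t ∈ A, y t = 0)
    (L : Finset T) : ∃ R : Finset T, IsSeg R ∧ (∀ w ∈ R, tr A w = L) ∧
      ∀ v, v ∉ A → tr A v = L → |G y v| ≤ |∑ w ∈ R, y w| := by
  by_cases hne : {v | v ∉ A ∧ tr A v = L}.Nonempty
  · have hfin : ((fun v => |G y v|) '' {v | v ∉ A ∧ tr A v = L}).Finite := by
      refine ((finite_range_G y).image (fun r => |r|)).subset ?_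
      rintro _ ⟨v, _, rfl⟩
      exact ⟨G y v, ⟨v, rfl⟩, rfl⟩
    obtain ⟨_, ⟨v0, hv0, rfl⟩, hmax⟩ := Set.exists_max_image _ id hfin (hne.image _)
    refine ⟨(below v0).filter (fun t => t ∉ A), (isSeg_below v0).filter hA.conv_notMem, ?_, ?_⟩
    · intro w hw
      rw [mem_filter, mem_below] at hw
      rw [tr_eq hA hw.1 hw.2, hv0.2]
    · intro v hv hvL
      have h1 : ∑ w ∈ (below v0).filter (fun t => t ∉ A), y w = G y v0 :=
        Finset.sum_filter_of_ne fun t _ ht hA' => ht (hy t hA')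
      rw [h1]
      exact hmax _ ⟨v, ⟨hv, hvL⟩, rfl⟩
  · refine ⟨∅, isSeg_empty, by simp, fun v hv hvL => ?_⟩
    exact absurd ⟨v, hv, hvL⟩ hne

/-- The transformed function. -/
noncomputable def zf (A : Finset T) (y : T →₀ ℝ) (ψ : Finset T → ℝ → ℝ) : T →₀ ℝ :=
  Finsupp.onFinset y.support (fun v => ψ (tr A v) (G y v) - ψ (tr A v) (G y v - y v)) (by
    intro v hv
    rw [Finsupp.mem_support_iff]
    intro h0
    exact hv (by simp [h0]))

lemma zf_apply (A : Finset T) (y : T →₀ ℝ) (ψ : Finset T → ℝ → ℝ) (v : T) :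
    zf A y ψ v = ψ (tr A v) (G y v) - ψ (tr A v) (G y v - y v) := rfl

lemma zf_eq_zero (A : Finset T) (y : T →₀ ℝ) (ψ : Finset T → ℝ → ℝ) {v : T} (hv : y v = 0) :
    zf A y ψ v = 0 := by
  rw [zf_apply, hv]; simp

lemma G_zf {A : Finset T} (hA : IsLow A) (y : T →₀ ℝ) (hy : ∀ t ∈ A, y t = 0)
    (ψ : Finset T → ℝ → ℝ) (hψ : ∀ L, ψ L 0 = 0) (v : T) :
    G (zf A y ψ) v = ψ (tr A v) (G y v) := by
  induction hn : (below v).card using Nat.strong_induction_on generalizing v with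
  | _ n ih =>
  by_cases hv : v ∈ A
  · have h1 : G y v = 0 := sum_eq_zero fun w hw => hy w (hA w v (mem_below.1 hw) hv)
    have h2 : G (zf A y ψ) v = 0 :=
      sum_eq_zero fun w hw => zf_eq_zero A y ψ (hy w (hA w v (mem_below.1 hw) hv))
    rw [h1, h2, hψ]
  have hvv : v ∈ below v := mem_below.2 le_rfl
  have hG : ∀ u : T →₀ ℝ, G u v = u v + ∑ w ∈ (below v).erase v, u w := fun u =>
    (Finset.add_sum_erase _ _ hvv).symm
  rcases ((below v).erase v).eq_empty_or_nonempty with he | hne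
  · have h1 := hG y
    have h2 := hG (zf A y ψ)
    rw [he, sum_empty] at h1 h2
    rw [h2, zf_apply]
    have : G y v - y v = 0 := by linarith
    rw [this, hψ]; ring
  · obtain ⟨v', hv', hmax⟩ := exists_max_of_chain (S := (below v).erase v)
      (fun a ha b hb => chain (mem_below.1 (mem_of_mem_erase ha))
        (mem_below.1 (mem_of_mem_erase hb))) hne
    have hv'v : v' ≤ v := mem_below.1 (mem_of_mem_erase hv')
    have hne' : v' ≠ v := ne_of_mem_erase hv'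
    have hb : (below v).erase v = below v' := by
      ext w
      constructor
      · intro hw; exact mem_below.2 (hmax w hw)
      · intro hw
        refine mem_erase.2 ⟨?_, mem_below.2 ((mem_below.1 hw).trans hv'v)⟩
        rintro rfl
        exact hne' (le_antisymm hv'v (mem_below.1 hw))
    have hcard : (below v').card < n := by
      rw [← hb, ← hn]; exact card_erase_lt_of_mem hvv
    have h0 := ih _ hcard v' rfl
    have htr : tr A v' = tr A v := by
      ext w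
      simp only [tr, mem_filter]
      constructor
      · rintro ⟨h1, h2⟩
        exact ⟨mem_below.2 ((mem_below.1 h1).trans hv'v), h2⟩
      · rintro ⟨h1, h2⟩
        refine ⟨?_, h2⟩
        rw [← hb]
        exact mem_erase.2 ⟨fun h => hv (h ▸ h2), h1⟩
    have h1 := hG y
    have h2 := hG (zf A y ψ)
    rw [hb] at h1 h2
    change G y v = y v + G y v' at h1
    change G (zf A y ψ) v = zf A y ψ v + G (zf A y ψ) v' at h2
    rw [h2, h0, htr, zf_apply]
    have : G y v - y v = G y v' := by linarith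
    rw [this]; ring

lemma seg_sum_eq {S : Finset T} (hS : IsSeg S) {a b : T} (ha : a ∈ S) (hb : b ∈ S)
    (hmin : ∀ w ∈ S, a ≤ w) (hmax : ∀ w ∈ S, w ≤ b) (u : T →₀ ℝ) :
    ∑ w ∈ S, u w = G u b - (G u a - u a) := by
  have haa : a ∈ below a := mem_below.2 le_rfl
  have h1 : G u a = u a + ∑ w ∈ (below a).erase a, u w := (Finset.add_sum_erase _ _ haa).symm
  have h2 : below b = S ∪ (below a).erase a := by
    ext w
    simp only [mem_below, mem_union, mem_erase]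
    constructor
    · intro hw
      rcases chain hw (hmax a ha) with h | h
      · by_cases hwa : w = a
        · left; rw [hwa]; exact ha
        · right; exact ⟨hwa, h⟩
      · left; exact hS.2 a ha b hb w h hw
    · rintro (hw | hw)
      · exact hmax w hw
      · exact hw.2.trans (hmax a ha)
  have h3 : Disjoint S ((below a).erase a) := by
    rw [Finset.disjoint_left]
    intro w hw hw'
    exact (mem_erase.1 hw').1 (le_antisymm (mem_below.1 (mem_erase.1 hw').2) (hmin w hw))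
  have h4 : G u b = ∑ w ∈ S, u w + ∑ w ∈ (below a).erase a, u w := by
    rw [G, h2, sum_union h3]
  linarith

lemma zf_seg_le {A : Finset T} (hA : IsLow A) (y : T →₀ ℝ) (hy : ∀ t ∈ A, y t = 0)
    (ψ : Finset T → ℝ → ℝ) (hψ : ∀ L, ψ L 0 = 0) (hlip : ∀ L r s, |ψ L r - ψ L s| ≤ |r - s|)
    {S : Finset T} (hS : IsSeg S) (hSA : ∀ w ∈ S, w ∉ A) :
    |∑ w ∈ S, zf A y ψ w| ≤ |∑ w ∈ S, y w| := by
  rcases S.eq_empty_or_nonempty with rfl | hne
  · simp
  obtain ⟨b, hb, hmax⟩ := exists_max_of_chain hS.1 hne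
  obtain ⟨a, ha, hmin⟩ := exists_min_of_chain hS.1 hne
  rw [seg_sum_eq hS ha hb hmin hmax, seg_sum_eq hS ha hb hmin hmax y, G_zf hA y hy ψ hψ,
    G_zf hA y hy ψ hψ, zf_apply, tr_eq hA (hmax a ha) (hSA a ha)]
  have := hlip (tr A b) (G y b) (G y a - y a)
  convert this using 2
  ring

/-- The sign condition attached to a trace. -/
def Pos (x : T →₀ ℝ) (W : ℝ) (L : Finset T) : Prop :=
  ∀ R, Fin' L R → ∑ w ∈ R, x w < -W → ∃ R', Fin' L R' ∧ R' ⊆ R ∧ W < ∑ w ∈ R', x w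

lemma neg_of_not_pos {A : Finset T} {v : T} {x : T →₀ ℝ} {W : ℝ} (h : ¬ Pos x W (tr A v))
    (R : Finset T) (hR : Fin' (tr A v) R) (hW : W < ∑ w ∈ R, x w) :
    ∃ R', Fin' (tr A v) R' ∧ R' ⊆ R ∧ ∑ w ∈ R', x w < -W := by
  unfold Pos at h
  push Not at h
  obtain ⟨R0, h0, h1, h2⟩ := h
  rcases hR.nested h0 with h3 | h3
  · exact absurd hW (not_lt.2 (h2 R hR h3))
  · exact ⟨R0, h0, h3, h1⟩

lemma Fin'.isSeg {A : Finset T} (hA : IsLow A) {v : T} {R : Finset T} (h : Fin' (tr A v) R) :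
    IsSeg R := by
  have hL : IsSeg (tr A v) := (isSeg_below v).filter hA.conv_mem
  refine ⟨fun a ha b hb => hL.1 a (h.1 ha) b (h.1 hb), fun a ha c hc b h1 h2 => ?_⟩
  exact h.2 a ha b (hL.2 a (h.1 ha) c (h.1 hc) b h1 h2) h1

lemma Fin'.isSeg_sdiff {A : Finset T} (hA : IsLow A) {v : T} {R R' : Finset T}
    (h : Fin' (tr A v) R) (h' : Fin' (tr A v) R') : IsSeg (R \ R') := by
  have hR := h.isSeg hA
  refine ⟨fun a ha b hb => hR.1 a (mem_sdiff.1 ha).1 b (mem_sdiff.1 hb).1,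
    fun a ha c hc b h1 h2 => ?_⟩
  have hb := hR.2 a (mem_sdiff.1 ha).1 c (mem_sdiff.1 hc).1 b h1 h2
  refine mem_sdiff.2 ⟨hb, fun hb' => (mem_sdiff.1 hc).2 ?_⟩
  exact h'.2 b hb' c (h.1 (mem_sdiff.1 hc).1) h2

lemma seg_step {A : Finset T} (hA : IsLow A) (x y : T →₀ ℝ) (hx : ∀ t, t ∉ A → x t = 0)
    (hy : ∀ t ∈ A, y t = 0) (R : Finset T → Finset T) (hR1 : ∀ L, IsSeg (R L))
    (hR2 : ∀ L, ∀ w ∈ R L, tr A w = L)
    (hR3 : ∀ L v, v ∉ A → tr A v = L → |G y v| ≤ |∑ w ∈ R L, y w|)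
    (ψ : Finset T → ℝ → ℝ) (hψ : ∀ L, ψ L 0 = 0) (hlip : ∀ L r s, |ψ L r - ψ L s| ≤ |r - s|)
    (hpos : ∀ L r, Pos x (|∑ w ∈ R L, y w|) L → ψ L r ≤ 0)
    (hneg : ∀ L r, ¬ Pos x (|∑ w ∈ R L, y w|) L → 0 ≤ ψ L r)
    (S : Finset T) (hS : IsSeg S) :
    ∃ S1 S2 R' : Finset T, IsSeg S1 ∧ IsSeg S2 ∧ IsSeg R' ∧ S1 ⊆ S ∧ S2 ⊆ S ∧ Disjoint S1 S2 ∧
      (∀ w ∈ R', Fin' (tr A w) (S.filter (fun t => t ∈ A)) ∧
        (S.filter (fun t => t ∈ A)).Nonempty) ∧
      (∑ t ∈ S, (x + zf A y ψ) t) ^ 2 ≤ (∑ t ∈ S1, x t) ^ 2 + (∑ t ∈ S2, x t) ^ 2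
        + 2 * (∑ t ∈ R', y t) ^ 2 + (∑ t ∈ S.filter (fun t => t ∉ A), y t) ^ 2 := by
  set SA := S.filter (fun t => t ∈ A) with hSA
  set SB := S.filter (fun t => t ∉ A) with hSB
  have hsum : ∑ t ∈ S, (x + zf A y ψ) t = ∑ t ∈ SA, x t + ∑ t ∈ SB, zf A y ψ t := by
    simp only [Finsupp.add_apply, sum_add_distrib]
    congr 1
    · exact (Finset.sum_filter_of_ne fun t _ ht => by
        by_contra hc; exact ht (hx t hc)).symm
    · exact (Finset.sum_filter_of_ne (p := fun t => t ∉ A)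
        fun t _ ht hc => ht (zf_eq_zero A y ψ (hy t hc))).symm
  have hSAseg : IsSeg SA := hS.filter hA.conv_mem
  have hSBseg : IsSeg SB := hS.filter hA.conv_notMem
  have hg : |∑ t ∈ SB, zf A y ψ t| ≤ |∑ t ∈ SB, y t| :=
    zf_seg_le hA y hy ψ hψ hlip hSBseg fun w hw => (mem_filter.1 hw).2
  have hg2 : (∑ t ∈ SB, zf A y ψ t) ^ 2 ≤ (∑ t ∈ SB, y t) ^ 2 := sq_le_sq.2 hg
  rw [hsum]
  -- the non crossing cases
  have hsimple : (∑ t ∈ SA, x t) * (∑ t ∈ SB, zf A y ψ t) ≤ 0 →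
      ∃ S1 S2 R' : Finset T, IsSeg S1 ∧ IsSeg S2 ∧ IsSeg R' ∧ S1 ⊆ S ∧ S2 ⊆ S ∧ Disjoint S1 S2 ∧
      (∀ w ∈ R', Fin' (tr A w) SA ∧ SA.Nonempty) ∧
      (∑ t ∈ SA, x t + ∑ t ∈ SB, zf A y ψ t) ^ 2 ≤ (∑ t ∈ S1, x t) ^ 2 + (∑ t ∈ S2, x t) ^ 2
        + 2 * (∑ t ∈ R', y t) ^ 2 + (∑ t ∈ SB, y t) ^ 2 := by
    intro h
    refine ⟨SA, ∅, ∅, hSAseg, isSeg_empty, isSeg_empty, filter_subset _ _, empty_subset _,
      disjoint_empty_right _, by simp, ?_⟩
    simp only [sum_empty]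
    nlinarith
  rcases SA.eq_empty_or_nonempty with he | hneA
  · apply hsimple; rw [he]; simp
  rcases SB.eq_empty_or_nonempty with he | hneB
  · apply hsimple; rw [he]; simp
  obtain ⟨b, hb, hmax⟩ := exists_max_of_chain hS.1 (hneA.mono (filter_subset _ _))
  have hbA : b ∉ A := by
    obtain ⟨c, hc⟩ := hneB
    intro hbA
    exact (mem_filter.1 hc).2 (hA c b (hmax c (mem_filter.1 hc).1) hbA)
  have hFin : Fin' (tr A b) SA := by
    constructor
    · intro w hw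
      exact mem_filter.2 ⟨mem_below.2 (hmax w (mem_filter.1 hw).1), (mem_filter.1 hw).2⟩
    · intro a ha c hc hac
      exact mem_filter.2 ⟨hS.2 a (mem_filter.1 ha).1 b hb c hac
        (mem_below.1 (mem_filter.1 hc).1), (mem_filter.1 hc).2⟩
  have hSBeq : SB = (below b).filter (fun t => t ∉ A) := by
    ext w
    simp only [hSB, mem_filter, mem_below]
    constructor
    · rintro ⟨h1, h2⟩; exact ⟨hmax w h1, h2⟩
    · rintro ⟨h1, h2⟩
      obtain ⟨a, ha⟩ := hneA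
      have ha' := mem_filter.1 ha
      rcases chain h1 (hmax a ha'.1) with h | h
      · exact absurd (hA w a h ha'.2) h2
      · exact ⟨hS.2 a ha'.1 b hb w h h1, h2⟩
  have hgval : ∑ t ∈ SB, zf A y ψ t = ψ (tr A b) (G y b) := by
    rw [← G_zf hA y hy ψ hψ b, hSBeq]
    exact Finset.sum_filter_of_ne fun t _ ht hc => ht (zf_eq_zero A y ψ (hy t hc))
  set L := tr A b with hL
  set W := |∑ w ∈ R L, y w| with hW
  have hgW : |∑ t ∈ SB, zf A y ψ t| ≤ W := by
    rw [hgval]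
    have h1 := hlip L (G y b) 0
    rw [hψ, sub_zero, sub_zero] at h1
    exact h1.trans (hR3 L b hbA rfl)
  have hW0 : 0 ≤ W := abs_nonneg _
  have hWsq : (∑ w ∈ R L, y w) ^ 2 = W ^ 2 := (sq_abs _).symm
  set a := ∑ t ∈ SA, x t with ha
  set g := ∑ t ∈ SB, zf A y ψ t with hgdef
  have hRprop : ∀ w ∈ R L, Fin' (tr A w) SA ∧ SA.Nonempty := fun w hw => by
    rw [hR2 L w hw]; exact ⟨hFin, hneA⟩
  -- small case
  have hsmall : |a| ≤ W →
      ∃ S1 S2 R' : Finset T, IsSeg S1 ∧ IsSeg S2 ∧ IsSeg R' ∧ S1 ⊆ S ∧ S2 ⊆ S ∧ Disjoint S1 S2 ∧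
      (∀ w ∈ R', Fin' (tr A w) SA ∧ SA.Nonempty) ∧
      (a + g) ^ 2 ≤ (∑ t ∈ S1, x t) ^ 2 + (∑ t ∈ S2, x t) ^ 2
        + 2 * (∑ t ∈ R', y t) ^ 2 + (∑ t ∈ SB, y t) ^ 2 := by
    intro h
    refine ⟨SA, ∅, R L, hSAseg, isSeg_empty, hR1 L, filter_subset _ _, empty_subset _,
      disjoint_empty_right _, hRprop, ?_⟩
    simp only [sum_empty]
    have h1 : a * g ≤ W ^ 2 := by
      calc a * g ≤ |a * g| := le_abs_self _
        _ = |a| * |g| := abs_mul _ _
        _ ≤ W * W := mul_le_mul h hgW (abs_nonneg _) hW0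
        _ = W ^ 2 := by ring
    rw [hWsq, ← ha]
    nlinarith
  -- splitting case
  have hsplit : ∀ R'' : Finset T, Fin' L R'' → R'' ⊆ SA → a * g ≤ - (a * ∑ w ∈ R'', x w) →
      ∃ S1 S2 R' : Finset T, IsSeg S1 ∧ IsSeg S2 ∧ IsSeg R' ∧ S1 ⊆ S ∧ S2 ⊆ S ∧ Disjoint S1 S2 ∧
      (∀ w ∈ R', Fin' (tr A w) SA ∧ SA.Nonempty) ∧
      (a + g) ^ 2 ≤ (∑ t ∈ S1, x t) ^ 2 + (∑ t ∈ S2, x t) ^ 2
        + 2 * (∑ t ∈ R', y t) ^ 2 + (∑ t ∈ SB, y t) ^ 2 := by
    intro R'' h1 h2 h3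
    refine ⟨SA \ R'', R'', ∅, hFin.isSeg_sdiff hA h1, h1.isSeg hA, isSeg_empty,
      sdiff_subset.trans (filter_subset _ _), h2.trans (filter_subset _ _), sdiff_disjoint,
      by simp, ?_⟩
    have h4 : ∑ t ∈ SA \ R'', x t = a - ∑ w ∈ R'', x w := by
      rw [ha, ← sum_sdiff h2]; ring
    rw [h4]
    simp only [sum_empty]
    nlinarith [sq_nonneg (∑ w ∈ R'', x w)]
  have hgW1 := (abs_le.1 hgW).1
  have hgW2 := (abs_le.1 hgW).2
  by_cases hP : Pos x W L
  · have hg0 : g ≤ 0 := by rw [hgval]; exact hpos L _ hP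
    rcases le_or_gt 0 a with h | h
    · exact hsimple (mul_nonpos_of_nonneg_of_nonpos h hg0)
    rcases le_or_gt (-W) a with h' | h'
    · exact hsmall (abs_le.2 ⟨h', by linarith⟩)
    obtain ⟨R'', h1, h2, h3⟩ := hP SA hFin h'
    exact hsplit R'' h1 h2 (by nlinarith)
  · have hg0 : 0 ≤ g := by rw [hgval]; exact hneg L _ hP
    rcases le_or_gt a 0 with h | h
    · exact hsimple (mul_nonpos_of_nonpos_of_nonneg h hg0)
    rcases le_or_gt a W with h' | h'
    · exact hsmall (abs_le.2 ⟨by linarith, h'⟩)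
    obtain ⟨R'', h1, h2, h3⟩ := neg_of_not_pos hP SA hFin h'
    exact hsplit R'' h1 h2 (by nlinarith)

lemma Q_add_zf_le {A : Finset T} (hA : IsLow A) (x y : T →₀ ℝ) (hx : ∀ t, t ∉ A → x t = 0)
    (hy : ∀ t ∈ A, y t = 0) (R : Finset T → Finset T) (hR1 : ∀ L, IsSeg (R L))
    (hR2 : ∀ L, ∀ w ∈ R L, tr A w = L)
    (hR3 : ∀ L v, v ∉ A → tr A v = L → |G y v| ≤ |∑ w ∈ R L, y w|)
    (ψ : Finset T → ℝ → ℝ) (hψ : ∀ L, ψ L 0 = 0) (hlip : ∀ L r s, |ψ L r - ψ L s| ≤ |r - s|)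
    (hpos : ∀ L r, Pos x (|∑ w ∈ R L, y w|) L → ψ L r ≤ 0)
    (hneg : ∀ L r, ¬ Pos x (|∑ w ∈ R L, y w|) L → 0 ≤ ψ L r) :
    Q (x + zf A y ψ) ≤ Q x + 3 * Q y := by
  refine Q_le fun ι I S hS => ?_
  have hstep := fun i : I => seg_step hA x y hx hy R hR1 hR2 hR3 ψ hψ hlip hpos hneg (S i)
    (hS.1 i i.2)
  choose S1 S2 R' h1 h2 h3 h4 h5 h6 h7 h8 using hstep
  have hdisj : ∀ i j : I, i ≠ j → Disjoint (S i) (S j) := fun i j hij =>
    hS.2 i i.2 j j.2 (fun h => hij (Subtype.ext h))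
  have hF1 : IsFam (univ : Finset I) S1 :=
    ⟨fun i _ => h1 i, fun i _ j _ hij => (hdisj i j hij).mono (h4 i) (h4 j)⟩
  have hF2 : IsFam (univ : Finset I) S2 :=
    ⟨fun i _ => h2 i, fun i _ j _ hij => (hdisj i j hij).mono (h5 i) (h5 j)⟩
  have hF3 : IsFam (univ : Finset I) R' := by
    refine ⟨fun i _ => h3 i, fun i _ j _ hij => ?_⟩
    rw [Finset.disjoint_left]
    intro w hwi hwj
    obtain ⟨hi1, hi2⟩ := h7 i w hwi
    obtain ⟨hj1, hj2⟩ := h7 j w hwj
    have hd := Finset.disjoint_left.1 (hdisj i j hij)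
    rcases hi1.nested hj1 with h | h
    · obtain ⟨a, ha⟩ := hi2
      exact hd (mem_filter.1 ha).1 (mem_filter.1 (h ha)).1
    · obtain ⟨a, ha⟩ := hj2
      exact hd (mem_filter.1 (h ha)).1 (mem_filter.1 ha).1
  have hF4 : IsFam (univ : Finset I) (fun i => (S i).filter (fun t => t ∉ A)) :=
    ⟨fun i _ => (hS.1 i i.2).filter hA.conv_notMem,
      fun i _ j _ hij => (hdisj i j hij).mono (filter_subset _ _) (filter_subset _ _)⟩
  have e1 := le_Q_two hF1 hF2 (fun i _ j _ => by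
    by_cases hij : i = j
    · subst hij; exact h6 i
    · exact (hdisj i j hij).mono (h4 i) (h5 j)) x
  have e2 := le_Q hF3 y
  have e3 := le_Q hF4 y
  have e4 := Finset.sum_le_sum (s := (univ : Finset I)) fun i _ => h8 i
  simp only [sum_add_distrib, ← mul_sum] at e4
  rw [← Finset.sum_coe_sort I]
  linarith

/-- The key estimate. -/
theorem key {A : Finset T} (hA : IsLow A) (x y : T →₀ ℝ) (hx : ∀ t, t ∉ A → x t = 0)
    (hy : ∀ t ∈ A, y t = 0) : ∃ z z' : T →₀ ℝ, z - z' = y ∧ (∀ t ∈ A, z t = 0) ∧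
      (∀ t ∈ A, z' t = 0) ∧ Q (x + z) ≤ Q x + 3 * Q y ∧ Q (x + z') ≤ Q x + 3 * Q y := by
  classical
  choose R hR1 hR2 hR3 using exists_R hA y hy
  let ψ : Finset T → ℝ → ℝ := fun L r =>
    if Pos x (|∑ w ∈ R L, y w|) L then min r 0 else max r 0
  let ψ' : Finset T → ℝ → ℝ := fun L r => ψ L (-r)
  have hψ0 : ∀ L, ψ L 0 = 0 := fun L => by simp [ψ]
  have hlip : ∀ L r s, |ψ L r - ψ L s| ≤ |r - s| := fun L r s => by
    simp only [ψ]
    split_ifs
    · exact abs_min_sub_min_le_max r 0 s 0 |>.trans (by simp)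
    · exact abs_max_sub_max_le_abs r s 0
  have hpos : ∀ L r, Pos x (|∑ w ∈ R L, y w|) L → ψ L r ≤ 0 := fun L r h => by
    simp only [ψ, if_pos h]; exact min_le_right _ _
  have hneg : ∀ L r, ¬ Pos x (|∑ w ∈ R L, y w|) L → 0 ≤ ψ L r := fun L r h => by
    simp only [ψ, if_neg h]; exact le_max_right _ _
  have hdiff : ∀ L r, ψ L r - ψ' L r = r := fun L r => by
    simp only [ψ', ψ]
    split_ifs
    · rcases le_total r 0 with h | h
      · rw [min_eq_left h, min_eq_right (by linarith)]; ring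
      · rw [min_eq_right h, min_eq_left (by linarith)]; ring
    · rcases le_total r 0 with h | h
      · rw [max_eq_right h, max_eq_left (by linarith)]; ring
      · rw [max_eq_left h, max_eq_right (by linarith)]; ring
  refine ⟨zf A y ψ, zf A y ψ', ?_, fun t ht => zf_eq_zero A y ψ (hy t ht),
    fun t ht => zf_eq_zero A y ψ' (hy t ht),
    Q_add_zf_le hA x y hx hy R hR1 hR2 hR3 ψ hψ0 hlip hpos hneg,
    Q_add_zf_le hA x y hx hy R hR1 hR2 hR3 ψ' (fun L => by simp [ψ', hψ0]) (fun L r s => ?_)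
      (fun L r h => hpos L _ h) (fun L r h => hneg L _ h)⟩
  · ext v
    rw [Finsupp.sub_apply, zf_apply, zf_apply]
    have h1 := hdiff (tr A v) (G y v)
    have h2 := hdiff (tr A v) (G y v - y v)
    linarith
  · have := hlip L (-r) (-s)
    rw [show -r - -s = -(r - s) by ring, abs_neg] at this
    exact this

end Vale.Agent.P069
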