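import Vale.Agent.P069.Defs
import Vale.Agent.P069.Dual

/-!
The dual of the James forest space is AMUC and not AUC renormable.
-/

namespace Vale.Agent.P069

open Finset Filter Topology

/-- Restriction of a functional to finitely many basis vectors. -/
noncomputable def resL (A : Finset T) : XX →L[ℝ] (A → ℝ) :=
  ContinuousLinearMap.pi fun t => ContinuousLinearMap.apply ℝ ℝ (Finsupp.single (t : T) (1 : ℝ))

lemma isCof_ker (A : Finset T) : IsCof (LinearMap.ker (resL A).toLinearMap) := by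
  refine ⟨(resL A).isClosed_ker, ?_⟩
  exact (LinearMap.quotKerEquivRange (resL A).toLinearMap).symm.finiteDimensional

lemma apply_eq_zero_of_mem_ker {A : Finset T} {g : XX}
    (hg : g ∈ LinearMap.ker (resL A).toLinearMap) (x : E) (hx : ∀ t, t ∉ A → x t = 0) :
    g x = 0 := by
  rw [apply_eq_sum]
  refine sum_eq_zero fun t ht => ?_
  have htA : t ∈ A := by
    by_contra hc
    exact Finsupp.mem_support_iff.1 ht (hx t hc)
  have h1 : resL A g = 0 := hg
  have h2 : g (Finsupp.single t 1) = 0 := congrFun h1 ⟨t, htA⟩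
  rw [h2, mul_zero]

lemma norm_le_add_of_vanish {A : Finset T} (hA : IsLow A) (x z : E) (hx : ∀ t, t ∉ A → x t = 0)
    (hz : ∀ t ∈ A, z t = 0) : ‖z‖ ≤ ‖x + z‖ := by
  have : z = (x + z).filter (fun t => t ∉ A) := by
    ext t
    rw [Finsupp.filter_apply, Finsupp.add_apply]
    split_ifs with h
    · exact hz t h
    · rw [hx t h, zero_add]
  conv_lhs => rw [this]
  exact norm_filter_le _ hA.conv_notMem _

theorem amuc_est (t : ℝ) (ht : 0 < t) : ∃ δ : ℝ, 0 < δ ∧ ∀ f : XX, ‖f‖ = 1 →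
    ∃ F : Submodule ℝ XX, IsCof F ∧ ∀ g ∈ F, ‖g‖ = 1 →
      δ ≤ max ‖f + t • g‖ ‖f - t • g‖ - 1 := by
  have hs : 0 < t / 12 := by positivity
  set s := t / 12 with hsdef
  have hts : t = 12 * s := by rw [hsdef]; ring
  have hM : 0 < 1 + 3 * s ^ 2 / 2 := by positivity
  set M := 1 + 3 * s ^ 2 / 2 with hMdef
  have hη : 0 < s ^ 2 / (2 * (1 + M)) := by positivity
  set η := s ^ 2 / (2 * (1 + M)) with hηdef
  have hηM : η * (1 + M) = s ^ 2 / 2 := by rw [hηdef]; field_simp
  refine ⟨s ^ 2 / M, by positivity, fun f hf => ?_⟩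
  obtain ⟨x, hx1, hx2⟩ := exists_norming f hη
  obtain ⟨A, hA, hxA, hA2⟩ := shrinking f hη x.support
  have hx : ∀ v, v ∉ A → x v = 0 := fun v hv => by
    by_contra hc
    exact hv (hxA (Finsupp.mem_support_iff.2 hc))
  refine ⟨_, isCof_ker A, fun g hg hg1 => ?_⟩
  obtain ⟨y0, hy1, hy2⟩ := exists_norming g (half_pos one_pos)
  let y : E := s • y0.filter (fun v => v ∉ A)
  have hyA : ∀ v ∈ A, y v = 0 := fun v hv => by simp [y, hv]
  have hgy : s / 2 ≤ g y := by
    have h0 := Finsupp.filter_add_filter_not y0 (fun v => v ∈ A)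
    have h1 : g (y0.filter (fun v => v ∈ A)) = 0 :=
      apply_eq_zero_of_mem_ker hg _ fun v hv => by rw [Finsupp.filter_apply, if_neg hv]
    have h2 : g y0 = g (y0.filter (fun v => v ∈ A)) + g (y0.filter (fun v => v ∉ A)) := by
      rw [← map_add, h0]
    have h3 : g y = s * g (y0.filter (fun v => v ∉ A)) := by simp [y]
    rw [h3]
    nlinarith
  have hQy : Q y ≤ s ^ 2 := by
    have h1 := Q_smul_le s (y0.filter (fun v => v ∉ A))
    have h2 := Q_filter_le _ hA.conv_notMem y0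
    have h3 : Q y0 ≤ 1 := by rw [← norm_sq]; exact pow_le_one₀ (norm_nonneg _) hy1
    have h4 : s ^ 2 * Q (y0.filter (fun v => v ∉ A)) ≤ s ^ 2 * 1 :=
      mul_le_mul_of_nonneg_left (h2.trans h3) (sq_nonneg s)
    exact h1.trans (by linarith)
  have hQx : Q x ≤ 1 := by rw [← norm_sq]; exact pow_le_one₀ (norm_nonneg _) hx1
  obtain ⟨z, z', hzz, hz, hz', hQ, hQ'⟩ := key hA x y hx hyA
  have hMsq : 1 + 3 * s ^ 2 ≤ M ^ 2 := by rw [hMdef]; nlinarith [sq_nonneg (s ^ 2)]
  have hn : ‖x + z‖ ≤ M := norm_le_of_Q_le_sq hM.le (by linarith)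
  have hn' : ‖x + z'‖ ≤ M := norm_le_of_Q_le_sq hM.le (by linarith)
  have hfz : |f z| ≤ η * M :=
    (hA2 z hz).trans (mul_le_mul_of_nonneg_left
      ((norm_le_add_of_vanish hA x z hx hz).trans hn) hη.le)
  have hfz' : |f z'| ≤ η * M :=
    (hA2 z' hz').trans (mul_le_mul_of_nonneg_left
      ((norm_le_add_of_vanish hA x z' hx hz').trans hn') hη.le)
  have hgx : g x = 0 := apply_eq_zero_of_mem_ker hg x hx
  set mx := max ‖f + t • g‖ ‖f - t • g‖ with hmx
  have e1 : (f + t • g) (x + z) ≤ mx * M := by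
    have := (f + t • g).le_opNorm (x + z)
    rw [Real.norm_eq_abs] at this
    exact (le_abs_self _).trans (this.trans (mul_le_mul (le_max_left _ _) hn (norm_nonneg _)
      ((norm_nonneg _).trans (le_max_left _ _))))
  have e2 : (f - t • g) (x + z') ≤ mx * M := by
    have := (f - t • g).le_opNorm (x + z')
    rw [Real.norm_eq_abs] at this
    exact (le_abs_self _).trans (this.trans (mul_le_mul (le_max_right _ _) hn' (norm_nonneg _)
      ((norm_nonneg _).trans (le_max_left _ _))))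
  have e3 : (f + t • g) (x + z) = f x + f z + t * g z := by
    simp [hgx]
  have e4 : (f - t • g) (x + z') = f x + f z' - t * g z' := by
    simp [hgx]
  have e5 : g z - g z' = g y := by rw [← map_sub, hzz]
  have e6 : t * (s / 2) ≤ t * g y := mul_le_mul_of_nonneg_left hgy ht.le
  have e7 : M + s ^ 2 ≤ mx * M := by
    rw [abs_le] at hfz hfz'
    have : t * g z - t * g z' = t * g y := by rw [← e5]; ring
    rw [hf] at hx2
    nlinarith [hfz.1, hfz'.1]
  rw [div_le_iff₀ hM]
  linarith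

theorem isAMUC_norm : IsAMUC (fun f : XX => ‖f‖) := by
  intro t ht
  obtain ⟨δ, hδ, H⟩ := amuc_est t ht
  refine lt_of_lt_of_le (EReal.coe_pos.2 hδ) ?_
  refine le_iInf₂ fun f hf => ?_
  obtain ⟨F, hF, hF2⟩ := H f hf
  refine le_iSup₂_of_le F hF (le_iInf₂ fun g hg => ?_)
  exact EReal.coe_le_coe_iff.2 (hF2 g hg.1 hg.2)

theorem isEquivNorm_norm : IsEquivNorm (fun f : XX => ‖f‖) :=
  ⟨norm_add_le, fun c x => (norm_smul c x).trans (by rw [Real.norm_eq_abs]), 1, 1, one_pos, one_pos,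
    fun x => by simp⟩

section General

variable {X : Type} [NormedAddCommGroup X] [NormedSpace ℝ X]

lemma approx_in_cof {F : Submodule ℝ X} (hF : IsCof F) (e : ℕ → X)
    (he : ∀ ψ : StrongDual ℝ X, Tendsto (fun i => ψ (e i)) atTop (𝓝 0)) {ε : ℝ} (hε : 0 < ε) :
    ∃ i, ∃ y ∈ F, ‖e i - y‖ < ε := by
  have : IsClosed (F : Set X) := hF.1
  have := hF.2
  let b := Module.finBasis ℝ (X ⧸ F)
  have h1 : Tendsto (fun i => ∑ j, ((LinearMap.toContinuousLinearMap (b.coord j)).comp
      F.mkQL) (e i) • b j) atTop (𝓝 (∑ j, (0 : ℝ) • b j)) :=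
    tendsto_finsetSum _ fun j _ => (he _).smul_const (b j)
  have h2 : ∀ i, ∑ j, ((LinearMap.toContinuousLinearMap (b.coord j)).comp
      F.mkQL) (e i) • b j = Submodule.Quotient.mk (e i) := fun i => by
    conv_rhs => rw [← b.sum_repr (Submodule.Quotient.mk (e i))]
    rfl
  simp only [h2, zero_smul, sum_const_zero] at h1
  have h3 := (tendsto_zero_iff_norm_tendsto_zero.1 h1).eventually (gt_mem_nhds (half_pos hε))
  obtain ⟨i, hi⟩ := h3.exists
  obtain ⟨m, hm1, hm2⟩ := Submodule.Quotient.norm_mk_lt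
    (Submodule.Quotient.mk (e i) : X ⧸ F) (half_pos hε)
  refine ⟨i, e i - m, ?_, ?_⟩
  · rw [← Submodule.Quotient.eq]; exact hm1.symm
  · rw [sub_sub_cancel]; linarith

lemma auc_step {N : X → ℝ} (hN : IsEquivNorm N) (hA : IsAUC N) : ∃ κ : ℝ, 0 < κ ∧
    ∀ u : X, ‖u‖ = 1 → ∀ e : ℕ → X, (∀ i, ‖e i‖ = 1) →
      (∀ ψ : StrongDual ℝ X, Tendsto (fun i => ψ (e i)) atTop (𝓝 0)) →
      ∃ i, N u + κ ≤ N (u + e i) := by
  obtain ⟨hadd, hsm, a, b, ha, hb, hab⟩ := hN
  have ht0 : 0 < a / (2 * b) := by positivity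
  set t0 := a / (2 * b) with ht0def
  have ht0b : t0 * b = a / 2 := by rw [ht0def]; field_simp
  obtain ⟨δ, hδ0, hδ⟩ := EReal.lt_iff_exists_real_btwn.1 (hA t0 ht0)
  have hδpos : 0 < δ := EReal.coe_pos.1 hδ0
  refine ⟨a * δ / 2, by positivity, fun u hu e he1 he2 => ?_⟩
  have hc1 : a ≤ N u := by simpa [hu] using (hab u).1
  have hc2 : N u ≤ b := by simpa [hu] using (hab u).2
  have hc : 0 < N u := ha.trans_le hc1
  set c := N u with hcdef
  have hx : N (c⁻¹ • u) = 1 := by
    rw [hsm, abs_of_pos (inv_pos.2 hc), ← hcdef, inv_mul_cancel₀ hc.ne']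
  have h1 := lt_of_lt_of_le hδ (iInf₂_le (c⁻¹ • u) hx)
  obtain ⟨F, h1⟩ := lt_iSup_iff.1 h1
  obtain ⟨hF, h1⟩ := lt_iSup_iff.1 h1
  have hε : 0 < min (1 / 2) (a * δ / (2 * b)) := lt_min (by norm_num) (by positivity)
  obtain ⟨i, y', hy'F, hy'⟩ := approx_in_cof hF e he2 hε
  have hε1 : ‖e i - y'‖ ≤ 1 / 2 := hy'.le.trans (min_le_left _ _)
  have hε2 : ‖e i - y'‖ ≤ a * δ / (2 * b) := hy'.le.trans (min_le_right _ _)
  have hy'n : 1 / 2 ≤ ‖y'‖ := by
    have := norm_sub_norm_le (e i) y'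
    rw [he1 i] at this
    linarith
  have hd1 : a / 2 ≤ N y' := by
    have := (hab y').1
    nlinarith
  have hd : 0 < N y' := by linarith
  set d := N y' with hddef
  have hy : N (d⁻¹ • y') = 1 := by
    rw [hsm, abs_of_pos (inv_pos.2 hd), ← hddef, inv_mul_cancel₀ hd.ne']
  have h2 := lt_of_lt_of_le h1 (iInf₂_le (d⁻¹ • y') ⟨F.smul_mem _ hy'F, hy⟩)
  have h3 : δ < N (c⁻¹ • u + t0 • d⁻¹ • y') - 1 := EReal.coe_lt_coe_iff.1 h2
  have hl0 : 0 < t0 * c / d := by positivity
  have hl1 : t0 * c / d ≤ 1 := by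
    rw [div_le_one hd]
    nlinarith
  set l := t0 * c / d with hl
  have h4 : c • (c⁻¹ • u + t0 • d⁻¹ • y') = (1 - l) • u + l • (u + y') := by
    rw [smul_add, smul_smul, mul_inv_cancel₀ hc.ne', one_smul, smul_smul, smul_smul, smul_add,
      ← add_assoc, ← add_smul, sub_add_cancel, one_smul, hl]
    congr 2
    ring
  have h5 : c * N (c⁻¹ • u + t0 • d⁻¹ • y') ≤ (1 - l) * c + l * N (u + y') := by
    have h6 := hsm c (c⁻¹ • u + t0 • d⁻¹ • y')
    rw [abs_of_pos hc, h4] at h6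
    have h7 := hadd ((1 - l) • u) (l • (u + y'))
    rw [hsm, hsm, abs_of_nonneg (by linarith), abs_of_pos hl0] at h7
    linarith
  have h6 : c * δ ≤ l * (N (u + y') - c) := by nlinarith
  have h7 : c * δ ≤ N (u + y') - c := by
    have h8 : 0 < c * δ := by positivity
    have h9 : 0 ≤ N (u + y') - c := by
      by_contra hneg
      have := mul_neg_of_pos_of_neg hl0 (not_le.1 hneg)
      linarith
    nlinarith
  have h8 : N (u + y') ≤ N (u + e i) + N (y' - e i) := by
    have := hadd (u + e i) (y' - e i)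
    rwa [show u + e i + (y' - e i) = u + y' by abel] at this
  have h9 : N (y' - e i) ≤ a * δ / 2 := by
    have h10 := (hab (y' - e i)).2
    rw [norm_sub_rev] at h10
    have h11 : b * ‖e i - y'‖ ≤ b * (a * δ / (2 * b)) := mul_le_mul_of_nonneg_left hε2 hb.le
    have h12 : b * (a * δ / (2 * b)) = a * δ / 2 := by field_simp
    linarith
  refine ⟨i, ?_⟩
  nlinarith

lemma isAUC_of_finiteDimensional [FiniteDimensional ℝ X] : IsAUC (fun x : X => ‖x‖) := by
  intro t _
  refine lt_of_lt_of_le (EReal.coe_pos.2 one_pos) ?_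
  refine le_iInf₂ fun f _ => ?_
  have hF : IsCof (⊥ : Submodule ℝ X) := ⟨by simp, inferInstance⟩
  refine le_iSup₂_of_le ⊥ hF (le_iInf₂ fun g hg => ?_)
  have h1 : g = 0 := (Submodule.mem_bot ℝ).1 hg.1
  have h2 : ‖g‖ = 1 := hg.2
  rw [h1, norm_zero] at h2
  exact absurd h2 zero_ne_one

end General

lemma summable_ev (ψ : StrongDual ℝ XX) : Summable (fun t => ψ (ev t) ^ 2) := by
  refine summable_of_sum_le (c := ‖ψ‖ ^ 2) (fun t => sq_nonneg _) fun I => ?_
  refine sq_le_of_self (sum_nonneg fun t _ => sq_nonneg _) ?_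
  have h1 : ψ (∑ t ∈ I, ψ (ev t) • ev t) = ∑ t ∈ I, ψ (ev t) ^ 2 := by
    rw [map_sum]
    refine sum_congr rfl fun t _ => ?_
    rw [map_smul, smul_eq_mul]; ring
  have h2 : ‖∑ t ∈ I, ψ (ev t) • ev t‖ ≤ √(∑ t ∈ I, ψ (ev t) ^ 2) := by
    refine ContinuousLinearMap.opNorm_le_bound _ (Real.sqrt_nonneg _) fun y => ?_
    have h3 : (∑ t ∈ I, ψ (ev t) • ev t) y = ∑ t ∈ I, ψ (ev t) * y t := by
      rw [_root_.sum_apply]
      rfl
    rw [h3, Real.norm_eq_abs, norm_def, ← Real.sqrt_mul (sum_nonneg fun t _ => sq_nonneg _)]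
    refine Real.abs_le_sqrt ((Finset.sum_mul_sq_le_sq_mul_sq I _ _).trans ?_)
    exact mul_le_mul_of_nonneg_left (sum_sq_le_Q I y) (sum_nonneg fun t _ => sq_nonneg _)
  have h3 := ψ.le_opNorm (∑ t ∈ I, ψ (ev t) • ev t)
  rw [h1, Real.norm_eq_abs] at h3
  exact (le_abs_self _).trans (h3.trans (mul_le_mul_of_nonneg_left h2 (norm_nonneg _)))

lemma tendsto_ev (c : ℕ → T) (hc : Function.Injective c) (ψ : StrongDual ℝ XX) :
    Tendsto (fun i => ψ (ev (c i))) atTop (𝓝 0) := by
  have h1 := ((summable_ev ψ).comp_injective hc).tendsto_atTop_zero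
  have h2 := h1.sqrt
  simp only [Function.comp, Real.sqrt_sq_eq_abs, Real.sqrt_zero] at h2
  exact (tendsto_zero_iff_abs_tendsto_zero _).2 h2

/-- The functional summing over a finite set of nodes. -/
noncomputable def segF (S : Finset T) : XX := ∑ t ∈ S, ev t

lemma segF_apply (S : Finset T) (y : E) : segF S y = ∑ t ∈ S, y t := by
  rw [segF, _root_.sum_apply]
  rfl

lemma norm_segF {S : Finset T} (hS : IsSeg S) {v : T} (hv : v ∈ S) : ‖segF S‖ = 1 := by
  apply le_antisymm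
  · refine ContinuousLinearMap.opNorm_le_bound _ zero_le_one fun y => ?_
    rw [segF_apply, Real.norm_eq_abs, one_mul]
    exact abs_seg_le hS y
  · have h1 := (segF S).le_opNorm (Finsupp.single v 1)
    have h2 : segF S (Finsupp.single v 1) = 1 := by
      rw [segF_apply]
      simp only [Finsupp.single_apply]
      rw [Finset.sum_ite_eq, if_pos hv]
    rw [h2, norm_one] at h1
    have h3 := norm_single_le v
    nlinarith [norm_nonneg (segF S)]

lemma norm_ev (v : T) : ‖ev v‖ = 1 := by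
  have := norm_segF (isSeg_singleton v) (mem_singleton_self v)
  rwa [segF, sum_singleton] at this

theorem not_auc : ¬ ∃ N : XX → ℝ, IsEquivNorm N ∧ IsAUC N := by
  rintro ⟨N, hN, hA⟩
  obtain ⟨κ, hκ, H⟩ := auc_step hN hA
  obtain ⟨-, -, a, b, ha, hb, hab⟩ := hN
  obtain ⟨n, hn⟩ := exists_nat_gt (b / κ)
  have hclaim : ∀ k : ℕ, k ≤ n → ∃ v : T, v.1.1 = n ∧ v.1.2.length = k ∧
      k * κ ≤ N (segF (below v)) := by
    intro k
    induction k with
    | zero =>
      intro _
      refine ⟨root n, rfl, rfl, ?_⟩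
      have := (hab (segF (below (root n)))).1
      have h2 : 0 ≤ a * ‖segF (below (root n))‖ := by positivity
      simp only [Nat.cast_zero, zero_mul]
      linarith
    | succ k ih =>
      intro hk
      obtain ⟨v, hv1, hv2, hv3⟩ := ih (by omega)
      have h : v.1.2.length < v.1.1 := by omega
      obtain ⟨i, hi⟩ := H (segF (below v)) (norm_segF (isSeg_below v) (mem_below.2 le_rfl))
        (fun i => ev (child v h i)) (fun i => norm_ev _) (tendsto_ev _ (child_injective v h))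
      refine ⟨child v h i, hv1, by simp [child, hv2], ?_⟩
      have h2 : segF (below (child v h i)) = segF (below v) + ev (child v h i) := by
        rw [segF, below_child, sum_insert (child_notMem_below v h i), add_comm]
        rfl
      rw [h2]
      push_cast
      linarith
  obtain ⟨v, -, -, hv⟩ := hclaim n le_rfl
  have h1 := (hab (segF (below v))).2
  rw [norm_segF (isSeg_below v) (mem_below.2 le_rfl), mul_one] at h1
  rw [div_lt_iff₀ hκ] at hn
  linarith

theorem not_finiteDimensional : ¬ FiniteDimensional ℝ XX := fun _ =>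
  not_auc ⟨_, isEquivNorm_norm, isAUC_of_finiteDimensional⟩

end Vale.Agent.P069
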